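import Mathlib

/-!
# P254, the wedge class: the scalar algebra

From `S ≤ 9 m1² + 36 m2² - 12 m1 m2 - 30 m1 m3`, `m1/2 ≤ m2 ≤ 3 m1/4` and `m2² ≤ m1 m3`
we get `80 S² m2² (m1 m3 - m2²) ≤ 9 m1⁸`.
-/

namespace Vale.Agent.Lib.P254.Wedge

/-- `(q - 30 v)² v ≤ (2/405) q³` for `0 ≤ 30 v ≤ q`. -/
theorem alg_amgm (q v : ℝ) (hv : 0 ≤ v) (hq : 30 * v ≤ q) :
    405 * ((q - 30 * v) ^ 2 * v) ≤ 2 * q ^ 3 := by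
  have h : 2 * q ^ 3 - 405 * ((q - 30 * v) ^ 2 * v) = (q - 90 * v) ^ 2 * (2 * q - 45 * v) := by
    ring
  have h2 : 0 ≤ (q - 90 * v) ^ 2 * (2 * q - 45 * v) :=
    mul_nonneg (sq_nonneg _) (by linarith)
  linarith

/-- The one-variable inequality `m2² q³ ≤ (729/32) m1⁸` on `m1/2 ≤ m2 ≤ 3 m1/4`. -/
theorem alg_onevar (m1 m2 : ℝ) (hlo : m1 / 2 ≤ m2) (hhi : m2 ≤ 3 / 4 * m1) :
    32 * (m2 ^ 2 * (9 * m1 ^ 2 - 12 * m1 * m2 + 6 * m2 ^ 2) ^ 3) ≤ 729 * m1 ^ 8 := by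
  have hp : 0 ≤ m2 - m1 / 2 := by linarith
  have hr : 0 ≤ 3 / 4 * m1 - m2 := by linarith
  have key : 729 * m1 ^ 8 - 32 * (m2 ^ 2 * (9 * m1 ^ 2 - 12 * m1 * m2 + 6 * m2 ^ 2) ^ 3)
      = 32 * (248832 * (m2 - m1 / 2) ^ 2 * (3 / 4 * m1 - m2) ^ 6
        + 1299456 * (m2 - m1 / 2) ^ 3 * (3 / 4 * m1 - m2) ^ 5
        + 2778624 * (m2 - m1 / 2) ^ 4 * (3 / 4 * m1 - m2) ^ 4
        + 3110400 * (m2 - m1 / 2) ^ 5 * (3 / 4 * m1 - m2) ^ 3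
        + 1912896 * (m2 - m1 / 2) ^ 6 * (3 / 4 * m1 - m2) ^ 2
        + 606528 * (m2 - m1 / 2) ^ 7 * (3 / 4 * m1 - m2)
        + 75816 * (m2 - m1 / 2) ^ 8) := by
    ring
  have hnn : 0 ≤ 32 * (248832 * (m2 - m1 / 2) ^ 2 * (3 / 4 * m1 - m2) ^ 6
        + 1299456 * (m2 - m1 / 2) ^ 3 * (3 / 4 * m1 - m2) ^ 5
        + 2778624 * (m2 - m1 / 2) ^ 4 * (3 / 4 * m1 - m2) ^ 4
        + 3110400 * (m2 - m1 / 2) ^ 5 * (3 / 4 * m1 - m2) ^ 3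
        + 1912896 * (m2 - m1 / 2) ^ 6 * (3 / 4 * m1 - m2) ^ 2
        + 606528 * (m2 - m1 / 2) ^ 7 * (3 / 4 * m1 - m2)
        + 75816 * (m2 - m1 / 2) ^ 8) := by
    positivity
  linarith

/-- **The scalar step.** -/
theorem wedge_alg (S m1 m2 m3 : ℝ) (hS : 0 ≤ S) (hlo : m1 / 2 ≤ m2) (hhi : m2 ≤ 3 / 4 * m1)
    (hv : 0 ≤ m1 * m3 - m2 ^ 2)
    (hD : S ≤ 9 * m1 ^ 2 + 36 * m2 ^ 2 - 12 * (m2 * m1) - 30 * (m3 * m1)) :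
    80 * S ^ 2 * m2 ^ 2 * (m1 * m3 - m2 ^ 2) ≤ 9 * m1 ^ 8 := by
  set v := m1 * m3 - m2 ^ 2 with hvdef
  set q := 9 * m1 ^ 2 - 12 * m1 * m2 + 6 * m2 ^ 2 with hqdef
  have hSq : S ≤ q - 30 * v := by
    rw [hvdef, hqdef]
    linarith
  have hq30 : 30 * v ≤ q := by linarith
  have h1 : S ^ 2 ≤ (q - 30 * v) ^ 2 := by
    apply pow_le_pow_left₀ hS hSq
  have h2 : S ^ 2 * v ≤ (q - 30 * v) ^ 2 * v := mul_le_mul_of_nonneg_right h1 hv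
  have h3 := alg_amgm q v hv hq30
  have h4 := alg_onevar m1 m2 hlo hhi
  have hm2 : 0 ≤ m2 ^ 2 := sq_nonneg _
  have h5 : 405 * (S ^ 2 * v) ≤ 2 * q ^ 3 := by linarith
  have h6 : 405 * (S ^ 2 * v) * m2 ^ 2 ≤ 2 * q ^ 3 * m2 ^ 2 :=
    mul_le_mul_of_nonneg_right h5 hm2
  have h7 : 32 * (m2 ^ 2 * q ^ 3) ≤ 729 * m1 ^ 8 := h4
  have e1 : 80 * S ^ 2 * m2 ^ 2 * v = 16 / 81 * (405 * (S ^ 2 * v) * m2 ^ 2) := by ring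
  have e2 : 16 / 81 * (2 * q ^ 3 * m2 ^ 2) = 1 / 81 * (32 * (m2 ^ 2 * q ^ 3)) := by ring
  calc 80 * S ^ 2 * m2 ^ 2 * v = 16 / 81 * (405 * (S ^ 2 * v) * m2 ^ 2) := e1
    _ ≤ 16 / 81 * (2 * q ^ 3 * m2 ^ 2) := by
        apply mul_le_mul_of_nonneg_left h6 (by norm_num)
    _ = 1 / 81 * (32 * (m2 ^ 2 * q ^ 3)) := e2
    _ ≤ 1 / 81 * (729 * m1 ^ 8) := by
        apply mul_le_mul_of_nonneg_left h7 (by norm_num)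
    _ = 9 * m1 ^ 8 := by ring

end Vale.Agent.Lib.P254.Wedge
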