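import Mathlib
import Vale.Agent.Lib.P254.PWJ.RampInt

/-!
# P254, the wedge class: the quadratic form and its polar form

For `f : ℝ → ℝ` on `[0,1]` put `mom k f = ∫₀¹ y^k f(y) dy` and `wS f g = ∫₀¹ y f(y) g(y) dy`.
The quadratic form
`D(l) = 9 (mom 1 l)² + 36 (mom 2 l)² - 12 (mom 2 l)(mom 1 l) - 30 (mom 3 l)(mom 1 l) - wS l l`
vanishes on affine functions and is nonnegative on concave nonnegative functions; `wB` is its
polar form and `wKer f` the kernel of the linear functional `g ↦ wB f g`.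
-/

namespace Vale.Agent.Lib.P254.Wedge

open MeasureTheory intervalIntegral

/-- The weighted moment `∫₀¹ y^k f(y) dy`. -/
noncomputable def mom (k : ℕ) (f : ℝ → ℝ) : ℝ := ∫ y in (0:ℝ)..1, y ^ k * f y

/-- The weighted product integral `∫₀¹ y f(y) g(y) dy`. -/
noncomputable def wS (f g : ℝ → ℝ) : ℝ := ∫ y in (0:ℝ)..1, y * (f y * g y)

/-- The polar form of the quadratic form `D`. -/
noncomputable def wB (f g : ℝ → ℝ) : ℝ :=
  9 * (mom 1 f * mom 1 g) + 36 * (mom 2 f * mom 2 g)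
    - 6 * (mom 2 f * mom 1 g + mom 2 g * mom 1 f)
    - 15 * (mom 3 f * mom 1 g + mom 3 g * mom 1 f) - wS f g

/-- The kernel of the linear functional `g ↦ wB f g`. -/
noncomputable def wKer (f : ℝ → ℝ) (y : ℝ) : ℝ :=
  9 * mom 1 f * y + 36 * mom 2 f * y ^ 2 - 6 * (mom 2 f * y + mom 1 f * y ^ 2)
    - 15 * (mom 3 f * y + mom 1 f * y ^ 3) - y * f y

/-- The tent generator (Green kernel) `g_c(y) = min (y (1 - c)) (c (1 - y))`. -/
noncomputable def tentG (c y : ℝ) : ℝ := min (y * (1 - c)) (c * (1 - y))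

theorem wS_comm (f g : ℝ → ℝ) : wS f g = wS g f := by
  unfold wS
  congr 1
  funext y
  ring

theorem wB_comm (f g : ℝ → ℝ) : wB f g = wB g f := by
  unfold wB
  rw [wS_comm f g]
  ring

/-- The quadratic form itself. -/
theorem wB_self (l : ℝ → ℝ) :
    wB l l = 9 * mom 1 l ^ 2 + 36 * mom 2 l ^ 2 - 12 * (mom 2 l * mom 1 l)
      - 30 * (mom 3 l * mom 1 l) - wS l l := by
  unfold wB
  ring

end Vale.Agent.Lib.P254.Wedge
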