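import Mathlib
import Vale.Agent.Lib.P254.Wedge.Form

/-!
# P254, the wedge class: Cauchy-Schwarz for the weighted moments
-/

namespace Vale.Agent.Lib.P254.Wedge

open MeasureTheory intervalIntegral Set

/-- `(∫ y² l)² ≤ (∫ y l)(∫ y³ l)` for `l ≥ 0` on `[0,1]`. -/
theorem mom_cs (l : ℝ → ℝ) (hl : IntervalIntegrable l volume 0 1)
    (hl0 : ∀ y ∈ Icc (0:ℝ) 1, 0 ≤ l y) :
    0 ≤ mom 1 l * mom 3 l - mom 2 l ^ 2 := by
  have hi : ∀ k : ℕ, IntervalIntegrable (fun y : ℝ => y ^ k * l y) volume 0 1 := fun k =>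
    hl.continuousOn_mul (continuous_pow k).continuousOn
  have key : ∀ t : ℝ, 0 ≤ mom 1 l * (t * t) + (-2 * mom 2 l) * t + mom 3 l := by
    intro t
    have h1 : 0 ≤ ∫ y in (0:ℝ)..1,
        (y ^ 3 * l y - 2 * t * (y ^ 2 * l y) + t ^ 2 * (y ^ 1 * l y)) := by
      apply intervalIntegral.integral_nonneg zero_le_one
      intro y hy
      have e : y ^ 3 * l y - 2 * t * (y ^ 2 * l y) + t ^ 2 * (y ^ 1 * l y)
          = y * (y - t) ^ 2 * l y := by ring
      rw [e]
      exact mul_nonneg (mul_nonneg hy.1 (sq_nonneg _)) (hl0 y hy)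
    rw [intervalIntegral.integral_add ((hi 3).sub ((hi 2).const_mul _)) ((hi 1).const_mul _),
      intervalIntegral.integral_sub (hi 3) ((hi 2).const_mul _),
      intervalIntegral.integral_const_mul, intervalIntegral.integral_const_mul] at h1
    have e2 : mom 1 l * (t * t) + (-2 * mom 2 l) * t + mom 3 l =
        (∫ y in (0:ℝ)..1, y ^ 3 * l y) - 2 * t * (∫ y in (0:ℝ)..1, y ^ 2 * l y)
          + t ^ 2 * (∫ y in (0:ℝ)..1, y ^ 1 * l y) := by
      unfold mom
      ring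
    rw [e2]
    exact h1
  have hd := discrim_le_zero key
  have e3 : discrim (mom 1 l) (-2 * mom 2 l) (mom 3 l)
      = -4 * (mom 1 l * mom 3 l - mom 2 l ^ 2) := by
    unfold discrim
    ring
  rw [e3] at hd
  linarith

/-- `0 ≤ ∫₀¹ y l(y)² dy`. -/
theorem wS_self_nonneg (l : ℝ → ℝ) : 0 ≤ wS l l := by
  unfold wS
  exact intervalIntegral.integral_nonneg zero_le_one
    (fun y hy => mul_nonneg hy.1 (mul_self_nonneg _))

end Vale.Agent.Lib.P254.Wedge
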