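import Mathlib
import Vale.Agent.Lib.P254.Wedge.Form

/-!
# P254, the wedge class: weighted integrals of the ramps `H75.ramp a y = min a (1 - y)`
-/

namespace Vale.Agent.Lib.P254.Wedge

open MeasureTheory intervalIntegral

/-- Integral of a quartic polynomial over an interval. -/
theorem rampMom_integral_quartic (u v c0 c1 c2 c3 c4 : ℝ) :
    ∫ y in u..v, (c0 + c1 * y + c2 * y ^ 2 + c3 * y ^ 3 + c4 * y ^ 4) =
      c0 * (v - u) + c1 * (v ^ 2 - u ^ 2) / 2 + c2 * (v ^ 3 - u ^ 3) / 3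
        + c3 * (v ^ 4 - u ^ 4) / 4 + c4 * (v ^ 5 - u ^ 5) / 5 := by
  have e : ∀ f : ℝ → ℝ, Continuous f → IntervalIntegrable f volume u v :=
    fun f hf => hf.intervalIntegrable _ _
  rw [integral_add (e _ (by fun_prop)) (e _ (by fun_prop)), H75.integral_cubic,
    intervalIntegral.integral_const_mul, integral_pow]
  norm_num
  ring

/-- Splitting a weighted ramp integral at `1 - a`. -/
theorem rampMom_split (k : ℕ) {a : ℝ} (ha0 : 0 ≤ a) (ha1 : a ≤ 1) :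
    ∫ y in (0:ℝ)..1, y ^ k * H75.ramp a y =
      (∫ y in (0:ℝ)..(1 - a), y ^ k * a) + ∫ y in (1 - a)..1, y ^ k * (1 - y) := by
  have hc : Continuous (fun y : ℝ => y ^ k * H75.ramp a y) :=
    (continuous_pow k).mul (H75.ramp_continuous a)
  rw [← integral_add_adjacent_intervals (hc.intervalIntegrable 0 (1 - a))
    (hc.intervalIntegrable (1 - a) 1)]
  congr 1
  · apply integral_congr
    intro y hy
    rw [Set.uIcc_of_le (by linarith)] at hy
    simp only [H75.ramp_of_le hy.2]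
  · apply integral_congr
    intro y hy
    rw [Set.uIcc_of_le (by linarith)] at hy
    simp only [H75.ramp_of_ge hy.1]

theorem mom1_one : mom 1 (fun _ => (1:ℝ)) = 1 / 2 := by
  unfold mom
  have h : ∫ y in (0:ℝ)..1, y ^ 1 * (1:ℝ)
      = ∫ y in (0:ℝ)..1, (0 + 1 * y + 0 * y ^ 2 + 0 * y ^ 3 + 0 * y ^ 4) := by
    apply integral_congr
    intro y _
    ring
  rw [h, rampMom_integral_quartic]
  norm_num

theorem mom2_one : mom 2 (fun _ => (1:ℝ)) = 1 / 3 := by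
  unfold mom
  have h : ∫ y in (0:ℝ)..1, y ^ 2 * (1:ℝ)
      = ∫ y in (0:ℝ)..1, (0 + 0 * y + 1 * y ^ 2 + 0 * y ^ 3 + 0 * y ^ 4) := by
    apply integral_congr
    intro y _
    ring
  rw [h, rampMom_integral_quartic]
  norm_num

theorem mom3_one : mom 3 (fun _ => (1:ℝ)) = 1 / 4 := by
  unfold mom
  have h : ∫ y in (0:ℝ)..1, y ^ 3 * (1:ℝ)
      = ∫ y in (0:ℝ)..1, (0 + 0 * y + 0 * y ^ 2 + 1 * y ^ 3 + 0 * y ^ 4) := by
    apply integral_congr
    intro y _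
    ring
  rw [h, rampMom_integral_quartic]
  norm_num

theorem mom1_ramp {a : ℝ} (ha0 : 0 ≤ a) (ha1 : a ≤ 1) :
    mom 1 (H75.ramp a) = a / 2 - a ^ 2 / 2 + a ^ 3 / 6 := by
  unfold mom
  rw [rampMom_split 1 ha0 ha1]
  have h1 : ∫ y in (0:ℝ)..(1 - a), y ^ 1 * a
      = ∫ y in (0:ℝ)..(1 - a), (0 + a * y + 0 * y ^ 2 + 0 * y ^ 3 + 0 * y ^ 4) := by
    apply integral_congr
    intro y _
    ring
  have h2 : ∫ y in (1 - a)..1, y ^ 1 * (1 - y)
      = ∫ y in (1 - a)..1, (0 + 1 * y + (-1) * y ^ 2 + 0 * y ^ 3 + 0 * y ^ 4) := by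
    apply integral_congr
    intro y _
    ring
  rw [h1, h2, rampMom_integral_quartic, rampMom_integral_quartic]
  ring

theorem mom2_ramp {a : ℝ} (ha0 : 0 ≤ a) (ha1 : a ≤ 1) :
    mom 2 (H75.ramp a) = a / 3 - a ^ 2 / 2 + a ^ 3 / 3 - a ^ 4 / 12 := by
  unfold mom
  rw [rampMom_split 2 ha0 ha1]
  have h1 : ∫ y in (0:ℝ)..(1 - a), y ^ 2 * a
      = ∫ y in (0:ℝ)..(1 - a), (0 + 0 * y + a * y ^ 2 + 0 * y ^ 3 + 0 * y ^ 4) := by
    apply integral_congr
    intro y _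
    ring
  have h2 : ∫ y in (1 - a)..1, y ^ 2 * (1 - y)
      = ∫ y in (1 - a)..1, (0 + 0 * y + 1 * y ^ 2 + (-1) * y ^ 3 + 0 * y ^ 4) := by
    apply integral_congr
    intro y _
    ring
  rw [h1, h2, rampMom_integral_quartic, rampMom_integral_quartic]
  ring

theorem mom3_ramp {a : ℝ} (ha0 : 0 ≤ a) (ha1 : a ≤ 1) :
    mom 3 (H75.ramp a) = a / 4 - a ^ 2 / 2 + a ^ 3 / 2 - a ^ 4 / 4 + a ^ 5 / 20 := by
  unfold mom
  rw [rampMom_split 3 ha0 ha1]
  have h1 : ∫ y in (0:ℝ)..(1 - a), y ^ 3 * a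
      = ∫ y in (0:ℝ)..(1 - a), (0 + 0 * y + 0 * y ^ 2 + a * y ^ 3 + 0 * y ^ 4) := by
    apply integral_congr
    intro y _
    ring
  have h2 : ∫ y in (1 - a)..1, y ^ 3 * (1 - y)
      = ∫ y in (1 - a)..1, (0 + 0 * y + 0 * y ^ 2 + 1 * y ^ 3 + (-1) * y ^ 4) := by
    apply integral_congr
    intro y _
    ring
  rw [h1, h2, rampMom_integral_quartic, rampMom_integral_quartic]
  ring

theorem wS_one_one : wS (fun _ => (1:ℝ)) (fun _ => (1:ℝ)) = 1 / 2 := by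
  unfold wS
  have h : ∫ y in (0:ℝ)..1, y * ((1:ℝ) * 1)
      = ∫ y in (0:ℝ)..1, (0 + 1 * y + 0 * y ^ 2 + 0 * y ^ 3 + 0 * y ^ 4) := by
    apply integral_congr
    intro y _
    ring
  rw [h, rampMom_integral_quartic]
  norm_num

theorem wS_one_ramp {a : ℝ} (ha0 : 0 ≤ a) (ha1 : a ≤ 1) :
    wS (fun _ => (1:ℝ)) (H75.ramp a) = a / 2 - a ^ 2 / 2 + a ^ 3 / 6 := by
  have h : wS (fun _ => (1:ℝ)) (H75.ramp a) = mom 1 (H75.ramp a) := by
    unfold wS mom
    apply integral_congr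
    intro y _
    ring
  rw [h, mom1_ramp ha0 ha1]

theorem wS_ramp_ramp {a b : ℝ} (hb0 : 0 ≤ b) (hba : b ≤ a) (ha1 : a ≤ 1) :
    wS (H75.ramp a) (H75.ramp b)
      = a * b / 2 - a ^ 2 * b / 2 + a ^ 3 * b / 6 - b ^ 3 / 6 + b ^ 4 / 12 := by
  unfold wS
  have hc : Continuous (fun y : ℝ => y * (H75.ramp a y * H75.ramp b y)) :=
    continuous_id.mul ((H75.ramp_continuous a).mul (H75.ramp_continuous b))
  rw [← integral_add_adjacent_intervals (hc.intervalIntegrable 0 (1 - b))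
    (hc.intervalIntegrable (1 - b) 1),
    ← integral_add_adjacent_intervals (hc.intervalIntegrable 0 (1 - a))
    (hc.intervalIntegrable (1 - a) (1 - b))]
  have h1 : ∫ y in (0:ℝ)..(1 - a), y * (H75.ramp a y * H75.ramp b y)
      = ∫ y in (0:ℝ)..(1 - a), (0 + a * b * y + 0 * y ^ 2 + 0 * y ^ 3 + 0 * y ^ 4) := by
    apply integral_congr
    intro y hy
    rw [Set.uIcc_of_le (by linarith)] at hy
    simp only [H75.ramp_of_le hy.2, H75.ramp_of_le (show y ≤ 1 - b by linarith [hy.2])]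
    ring
  have h2 : ∫ y in (1 - a)..(1 - b), y * (H75.ramp a y * H75.ramp b y)
      = ∫ y in (1 - a)..(1 - b), (0 + b * y + (-b) * y ^ 2 + 0 * y ^ 3 + 0 * y ^ 4) := by
    apply integral_congr
    intro y hy
    rw [Set.uIcc_of_le (by linarith)] at hy
    simp only [H75.ramp_of_ge hy.1, H75.ramp_of_le hy.2]
    ring
  have h3 : ∫ y in (1 - b)..1, y * (H75.ramp a y * H75.ramp b y)
      = ∫ y in (1 - b)..1, (0 + 1 * y + (-2) * y ^ 2 + 1 * y ^ 3 + 0 * y ^ 4) := by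
    apply integral_congr
    intro y hy
    rw [Set.uIcc_of_le (by linarith)] at hy
    simp only [H75.ramp_of_ge (show 1 - a ≤ y by linarith [hy.1]), H75.ramp_of_ge hy.1]
    ring
  rw [h1, h2, h3, rampMom_integral_quartic, rampMom_integral_quartic, rampMom_integral_quartic]
  ring

end Vale.Agent.Lib.P254.Wedge
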