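import Mathlib
import Vale.Agent.Lib.P254.Wedge.RampMom
import Vale.Agent.Lib.P254.PWJ.Quad.ConcavePos

/-!
# P254, the wedge class: bounds on the mean, concave antitone case
-/

namespace Vale.Agent.Lib.P254.Wedge

open MeasureTheory intervalIntegral Set

/-- The functional with the polynomial density `p y² + q y` in terms of the moments. -/
private lemma integral_quad_lin (p q : ℝ) (g : ℝ → ℝ)
    (hg : IntervalIntegrable g volume 0 1) :
    ∫ y in (0:ℝ)..1, (p * y ^ 2 + q * y) * g y = p * mom 2 g + q * mom 1 g := by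
  have hg1 : IntervalIntegrable (fun y => y ^ 1 * g y) volume 0 1 :=
    hg.continuousOn_mul (by fun_prop)
  have hg2 : IntervalIntegrable (fun y => y ^ 2 * g y) volume 0 1 :=
    hg.continuousOn_mul (by fun_prop)
  have hpt : ∀ y, (p * y ^ 2 + q * y) * g y = p * (y ^ 2 * g y) + q * (y ^ 1 * g y) := by
    intro y
    ring
  rw [integral_congr (fun y _ => hpt y), integral_add (hg2.const_mul _) (hg1.const_mul _),
    intervalIntegral.integral_const_mul, intervalIntegral.integral_const_mul]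
  rfl

/-- A functional `p mom₂ + q mom₁` that is nonnegative on the constant and on the ramps is
nonnegative on concave antitone nonnegative functions. -/
private lemma quad_lin_nonneg_anti (p q : ℝ) (h1 : 0 ≤ p / 3 + q / 2)
    (hr : ∀ a ∈ Icc (0:ℝ) 1,
      0 ≤ p * (a / 3 - a ^ 2 / 2 + a ^ 3 / 3 - a ^ 4 / 12) + q * (a / 2 - a ^ 2 / 2 + a ^ 3 / 6))
    (l : ℝ → ℝ) (hl0 : ∀ y ∈ Icc (0:ℝ) 1, 0 ≤ l y)
    (hanti : AntitoneOn l (Icc 0 1)) (hconc : ConcaveOn ℝ (Icc 0 1) l) :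
    0 ≤ p * mom 2 l + q * mom 1 l := by
  have hli : IntervalIntegrable l volume 0 1 :=
    AntitoneOn.intervalIntegrable (by rw [uIcc_of_le zero_le_one]; exact hanti)
  have hφc : Continuous (fun y : ℝ => p * y ^ 2 + q * y) := by fun_prop
  have hφ : IntervalIntegrable (fun y : ℝ => p * y ^ 2 + q * y) volume 0 1 :=
    hφc.intervalIntegrable 0 1
  have hone : 0 ≤ ∫ y in (0:ℝ)..1, (p * y ^ 2 + q * y) := by
    have e : ∫ y in (0:ℝ)..1, (p * y ^ 2 + q * y)
        = ∫ y in (0:ℝ)..1, (p * y ^ 2 + q * y) * (fun _ : ℝ => (1:ℝ)) y := by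
      apply integral_congr
      intro y _
      ring
    rw [e, integral_quad_lin p q _ intervalIntegrable_const, mom2_one, mom1_one]
    linarith
  have hramp : ∀ c ∈ Icc (0:ℝ) 1,
      0 ≤ ∫ y in (0:ℝ)..1, (p * y ^ 2 + q * y) * min (1 - c) (1 - y) := by
    intro c hc
    have e : ∫ y in (0:ℝ)..1, (p * y ^ 2 + q * y) * min (1 - c) (1 - y)
        = ∫ y in (0:ℝ)..1, (p * y ^ 2 + q * y) * H75.ramp (1 - c) y := rfl
    rw [e, integral_quad_lin p q _ ((H75.ramp_continuous _).intervalIntegrable 0 1),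
      mom2_ramp (by linarith [hc.2]) (by linarith [hc.1]),
      mom1_ramp (by linarith [hc.2]) (by linarith [hc.1])]
    exact hr (1 - c) ⟨by linarith [hc.2], by linarith [hc.1]⟩
  have h : 0 ≤ ∫ y in (0:ℝ)..1, (p * y ^ 2 + q * y) * l y :=
    PWJ.concave_pos_functional (fun y : ℝ => p * y ^ 2 + q * y) hφ hone hramp
      l hconc hanti hl0
  rwa [integral_quad_lin p q l hli] at h

theorem mom_lo_anti (l : ℝ → ℝ) (hl0 : ∀ y ∈ Icc (0:ℝ) 1, 0 ≤ l y)
    (hanti : AntitoneOn l (Icc 0 1)) (hconc : ConcaveOn ℝ (Icc 0 1) l) :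
    mom 1 l / 2 ≤ mom 2 l := by
  have h := quad_lin_nonneg_anti 1 (-(1 / 2)) (by norm_num)
    (fun a ha => by
      have h0 : 0 ≤ a := ha.1
      have h1 : 0 ≤ 1 - a := by linarith [ha.2]
      have e : (1:ℝ) * (a / 3 - a ^ 2 / 2 + a ^ 3 / 3 - a ^ 4 / 12)
          + -(1 / 2) * (a / 2 - a ^ 2 / 2 + a ^ 3 / 6) = a * (1 - a) ^ 3 / 12 := by ring
      rw [e]
      positivity)
    l hl0 hanti hconc
  linarith

theorem mom_hi_anti (l : ℝ → ℝ) (hl0 : ∀ y ∈ Icc (0:ℝ) 1, 0 ≤ l y)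
    (hanti : AntitoneOn l (Icc 0 1)) (hconc : ConcaveOn ℝ (Icc 0 1) l) :
    mom 2 l ≤ 3 / 4 * mom 1 l := by
  have h := quad_lin_nonneg_anti (-1) (3 / 4) (by norm_num)
    (fun a ha => by
      have h0 : 0 ≤ a := ha.1
      have h1 : 0 ≤ 1 - a := by linarith [ha.2]
      have e : (-1:ℝ) * (a / 3 - a ^ 2 / 2 + a ^ 3 / 3 - a ^ 4 / 12)
          + 3 / 4 * (a / 2 - a ^ 2 / 2 + a ^ 3 / 6)
          = a * (1 + a * (1 - a) * (1 + 2 * (1 - a))) / 24 := by ring
      rw [e]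
      positivity)
    l hl0 hanti hconc
  linarith

end Vale.Agent.Lib.P254.Wedge
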