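import Mathlib
import Vale.Agent.Lib.P254.Wedge.Form

/-!
# P254, the wedge class: a continuous concave function on `[0,1]` is a uniform limit of
nonnegative combinations of tents plus its chord
-/

namespace Vale.Agent.Lib.P254.Wedge

open MeasureTheory intervalIntegral Set

/-- The tent at `c` to the right of its kink. -/
theorem ta_tent_ge (c y : ℝ) (h : c ≤ y) : tentG c y = c * (1 - y) := by
  unfold tentG
  exact min_eq_right (by nlinarith)

/-- The tent at `c` to the left of its kink. -/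
theorem ta_tent_le (c y : ℝ) (h : y ≤ c) : tentG c y = y * (1 - c) := by
  unfold tentG
  exact min_eq_left (by nlinarith)

/-- Closed form of the initial sums of second differences against an affine weight. -/
theorem ta_sum (a : ℕ → ℝ) (c : ℝ) (j : ℕ) :
    ∑ i ∈ Finset.range j, (2 * a (i + 1) - a i - a (i + 2)) * (c - i) =
      (c + 1) * (a 1 - a 0) + a 0 - (c + 1 - j) * a (j + 1) + (c - j) * a j := by
  induction j with
  | zero =>
    simp only [Finset.range_zero, Finset.sum_empty, Nat.cast_zero, zero_add]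
    ring
  | succ j ih =>
    rw [Finset.sum_range_succ, ih]
    push_cast
    ring

/-- The value on the cell `[j/(n+1), (j+1)/(n+1)]` of the combination of tents at the nodes
with the second differences as weights. -/
theorem ta_cell (a : ℕ → ℝ) (n j : ℕ) (hjn : j ≤ n) (y : ℝ)
    (hj1 : (j:ℝ) ≤ ((n:ℝ) + 1) * y) (hj2 : ((n:ℝ) + 1) * y ≤ (j:ℝ) + 1) :
    ∑ i : Fin n, ((n:ℝ) + 1) * (2 * a ((i:ℕ) + 1) - a (i:ℕ) - a ((i:ℕ) + 2)) *
        tentG ((((i:ℕ):ℝ) + 1) / ((n:ℝ) + 1)) y =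
      (1 - y) * (((j:ℝ) + 1) * a j - j * a (j + 1) - a 0) +
        y * (((n:ℝ) + 1 - j) * a (j + 1) - ((n:ℝ) - j) * a j - a (n + 1)) := by
  have hN : (0:ℝ) < (n:ℝ) + 1 := by positivity
  have hsum : ∑ i : Fin n, ((n:ℝ) + 1) * (2 * a ((i:ℕ) + 1) - a (i:ℕ) - a ((i:ℕ) + 2)) *
        tentG ((((i:ℕ):ℝ) + 1) / ((n:ℝ) + 1)) y =
      ∑ i ∈ Finset.range n, ((n:ℝ) + 1) * (2 * a (i + 1) - a i - a (i + 2)) *
        tentG (((i:ℝ) + 1) / ((n:ℝ) + 1)) y :=
    Fin.sum_univ_eq_sum_range (fun i : ℕ => ((n:ℝ) + 1) * (2 * a (i + 1) - a i - a (i + 2)) *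
        tentG (((i:ℝ) + 1) / ((n:ℝ) + 1)) y) n
  have hlow : ∑ i ∈ Finset.range j, ((n:ℝ) + 1) * (2 * a (i + 1) - a i - a (i + 2)) *
        tentG (((i:ℝ) + 1) / ((n:ℝ) + 1)) y =
      -(1 - y) * ∑ i ∈ Finset.range j, (2 * a (i + 1) - a i - a (i + 2)) * ((-1:ℝ) - i) := by
    rw [Finset.mul_sum]
    refine Finset.sum_congr rfl (fun i hi => ?_)
    have hij : i < j := Finset.mem_range.mp hi
    have hcy : ((i:ℝ) + 1) / ((n:ℝ) + 1) ≤ y := by
      rw [div_le_iff₀ hN]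
      have h1 : (i:ℝ) + 1 ≤ j := by exact_mod_cast hij
      linarith
    rw [ta_tent_ge _ _ hcy]
    field_simp
    ring
  have hhigh : ∑ i ∈ Finset.Ico j n, ((n:ℝ) + 1) * (2 * a (i + 1) - a i - a (i + 2)) *
        tentG (((i:ℝ) + 1) / ((n:ℝ) + 1)) y =
      y * ∑ i ∈ Finset.Ico j n, (2 * a (i + 1) - a i - a (i + 2)) * ((n:ℝ) - i) := by
    rw [Finset.mul_sum]
    refine Finset.sum_congr rfl (fun i hi => ?_)
    have hij : j ≤ i := (Finset.mem_Ico.mp hi).1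
    have hcy : y ≤ ((i:ℝ) + 1) / ((n:ℝ) + 1) := by
      rw [le_div_iff₀ hN]
      have h1 : (j:ℝ) ≤ i := by exact_mod_cast hij
      linarith
    rw [ta_tent_le _ _ hcy]
    field_simp
    ring
  rw [hsum, ← Finset.sum_range_add_sum_Ico _ hjn, hlow, hhigh, Finset.sum_Ico_eq_sub _ hjn,
    ta_sum, ta_sum, ta_sum]
  ring

/-- **Tent approximation.**  For `l` continuous and concave on `[0,1]` and `ε > 0` there are
finitely many tents `tentG (c i)` with weights `w i ≥ 0` such that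
`l(0)(1-y) + l(1) y + ∑ w i * tentG (c i) y` is within `ε` of `l` on `[0,1]`
(the piecewise linear interpolant of `l` at the nodes `k/N`, `N` large). -/
theorem tent_approx (l : ℝ → ℝ) (hcont : ContinuousOn l (Icc (0:ℝ) 1))
    (hc : ConcaveOn ℝ (Icc (0:ℝ) 1) l) (ε : ℝ) (hε : 0 < ε) :
    ∃ (n : ℕ) (w c : Fin n → ℝ), (∀ i, 0 ≤ w i) ∧ (∀ i, c i ∈ Icc (0:ℝ) 1) ∧
      ∀ y ∈ Icc (0:ℝ) 1,
        |l y - (l 0 * (1 - y) + l 1 * y + ∑ i, w i * tentG (c i) y)| ≤ ε := by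
  have huc := isCompact_Icc.uniformContinuousOn_of_continuous hcont
  rw [Metric.uniformContinuousOn_iff] at huc
  obtain ⟨δ, hδ, hδl⟩ := huc ε hε
  obtain ⟨n, hn⟩ := exists_nat_one_div_lt hδ
  have hN : (0:ℝ) < (n:ℝ) + 1 := by positivity
  obtain ⟨a, ha⟩ : ∃ a : ℕ → ℝ, ∀ k, a k = l ((k:ℝ) / ((n:ℝ) + 1)) := ⟨_, fun _ => rfl⟩
  have hnode : ∀ k : ℕ, k ≤ n + 1 → (k:ℝ) / ((n:ℝ) + 1) ∈ Icc (0:ℝ) 1 := by
    intro k hk
    have h1 : (k:ℝ) ≤ (n:ℝ) + 1 := by exact_mod_cast hk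
    exact ⟨by positivity, by rw [div_le_one hN]; exact h1⟩
  refine ⟨n, fun i => ((n:ℝ) + 1) * (2 * a ((i:ℕ) + 1) - a (i:ℕ) - a ((i:ℕ) + 2)),
    fun i => (((i:ℕ):ℝ) + 1) / ((n:ℝ) + 1), ?_, ?_, ?_⟩
  · intro i
    have hi : (i:ℕ) < n := i.2
    have hx := hnode (i:ℕ) (by omega)
    have hz := hnode ((i:ℕ) + 2) (by omega)
    have hmid := hc.2 hx hz (by norm_num : (0:ℝ) ≤ 1 / 2) (by norm_num : (0:ℝ) ≤ 1 / 2)
      (by norm_num : (1 / 2 : ℝ) + 1 / 2 = 1)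
    have hpt : (1 / 2 : ℝ) • (((i:ℕ):ℝ) / ((n:ℝ) + 1)) +
        (1 / 2 : ℝ) • ((((i:ℕ) + 2 : ℕ):ℝ) / ((n:ℝ) + 1)) =
        ((((i:ℕ) + 1 : ℕ)):ℝ) / ((n:ℝ) + 1) := by
      simp only [smul_eq_mul]
      push_cast
      field_simp
      ring
    rw [hpt] at hmid
    simp only [smul_eq_mul] at hmid
    have h0 : 0 ≤ 2 * a ((i:ℕ) + 1) - a (i:ℕ) - a ((i:ℕ) + 2) := by
      rw [ha, ha, ha]
      linarith
    exact mul_nonneg hN.le h0
  · intro i
    have hi : (i:ℕ) < n := i.2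
    have h := hnode ((i:ℕ) + 1) (by omega)
    push_cast at h
    exact h
  · intro y hy
    obtain ⟨j, hjn, hj1, hj2⟩ : ∃ j : ℕ, j ≤ n ∧ (j:ℝ) ≤ ((n:ℝ) + 1) * y ∧
        ((n:ℝ) + 1) * y ≤ (j:ℝ) + 1 := by
      by_cases hy1 : y = 1
      · exact ⟨n, le_refl n, by rw [hy1]; linarith, by rw [hy1]; linarith⟩
      · have hylt : y < 1 := lt_of_le_of_ne hy.2 hy1
        have hnn : 0 ≤ ((n:ℝ) + 1) * y := mul_nonneg hN.le hy.1
        refine ⟨⌊((n:ℝ) + 1) * y⌋₊, ?_, ?_, ?_⟩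
        · have h1 : ((n:ℝ) + 1) * y < (n:ℝ) + 1 := by nlinarith
          have h2 : ⌊((n:ℝ) + 1) * y⌋₊ < n + 1 := by
            rw [Nat.floor_lt hnn]
            push_cast
            exact h1
          omega
        · exact Nat.floor_le hnn
        · exact (Nat.lt_floor_add_one _).le
    have hS := ta_cell a n j hjn y hj1 hj2
    have ha0 : a 0 = l 0 := by
      rw [ha]
      simp
    have han : a (n + 1) = l 1 := by
      rw [ha]
      congr 1
      push_cast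
      exact div_self hN.ne'
    have hδ' : 1 / ((n:ℝ) + 1) < δ := hn
    have hyj : |l y - a j| ≤ ε := by
      have hmem := hnode j (by omega)
      have hd : dist y ((j:ℝ) / ((n:ℝ) + 1)) < δ := by
        rw [Real.dist_eq]
        have e : y - (j:ℝ) / ((n:ℝ) + 1) = (((n:ℝ) + 1) * y - j) / ((n:ℝ) + 1) := by
          field_simp
        rw [e, abs_of_nonneg (div_nonneg (by linarith) hN.le)]
        refine lt_of_le_of_lt ?_ hδ'
        exact div_le_div_of_nonneg_right (by linarith) hN.le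
      have h := hδl y hy _ hmem hd
      rw [Real.dist_eq] at h
      rw [ha]
      exact h.le
    have hyj1 : |l y - a (j + 1)| ≤ ε := by
      have hmem := hnode (j + 1) (by omega)
      have hd : dist y (((j + 1 : ℕ):ℝ) / ((n:ℝ) + 1)) < δ := by
        rw [Real.dist_eq]
        have e : y - ((j + 1 : ℕ):ℝ) / ((n:ℝ) + 1) =
            -(((j:ℝ) + 1 - ((n:ℝ) + 1) * y) / ((n:ℝ) + 1)) := by
          push_cast
          field_simp
          ring
        rw [e, abs_neg, abs_of_nonneg (div_nonneg (by linarith) hN.le)]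
        refine lt_of_le_of_lt ?_ hδ'
        exact div_le_div_of_nonneg_right (by linarith) hN.le
      have h := hδl y hy _ hmem hd
      rw [Real.dist_eq] at h
      rw [ha]
      exact h.le
    have key : l y - (l 0 * (1 - y) + l 1 * y +
        ∑ i : Fin n, ((n:ℝ) + 1) * (2 * a ((i:ℕ) + 1) - a (i:ℕ) - a ((i:ℕ) + 2)) *
          tentG ((((i:ℕ):ℝ) + 1) / ((n:ℝ) + 1)) y) =
        ((j:ℝ) + 1 - ((n:ℝ) + 1) * y) * (l y - a j) +
          (((n:ℝ) + 1) * y - j) * (l y - a (j + 1)) := by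
      rw [hS, ← ha0, ← han]
      ring
    rw [key]
    have hθ1 : 0 ≤ (j:ℝ) + 1 - ((n:ℝ) + 1) * y := by linarith
    have hθ2 : 0 ≤ ((n:ℝ) + 1) * y - j := by linarith
    calc |((j:ℝ) + 1 - ((n:ℝ) + 1) * y) * (l y - a j) +
          (((n:ℝ) + 1) * y - j) * (l y - a (j + 1))|
        ≤ |((j:ℝ) + 1 - ((n:ℝ) + 1) * y) * (l y - a j)| +
          |(((n:ℝ) + 1) * y - j) * (l y - a (j + 1))| := abs_add_le _ _
      _ = ((j:ℝ) + 1 - ((n:ℝ) + 1) * y) * |l y - a j| +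
          (((n:ℝ) + 1) * y - j) * |l y - a (j + 1)| := by
          rw [abs_mul, abs_mul, abs_of_nonneg hθ1, abs_of_nonneg hθ2]
      _ ≤ ((j:ℝ) + 1 - ((n:ℝ) + 1) * y) * ε + (((n:ℝ) + 1) * y - j) * ε :=
          add_le_add (mul_le_mul_of_nonneg_left hyj hθ1) (mul_le_mul_of_nonneg_left hyj1 hθ2)
      _ = ε := by ring

end Vale.Agent.Lib.P254.Wedge
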