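import Mathlib
import Vale.Agent.Lib.P254.Wedge.TentApprox

/-!
# P254, the wedge class: positivity criterion for linear functionals on the full cone of
continuous concave nonnegative functions on `[0,1]`
-/

namespace Vale.Agent.Lib.P254.Wedge

open MeasureTheory intervalIntegral Set

theorem critTent_tentG_continuous (c : ℝ) : Continuous (tentG c) := by
  unfold tentG
  exact (continuous_id.mul continuous_const).min
    (continuous_const.mul (continuous_const.sub continuous_id))

/-- The final real-number step: a number bounded below by `-(ε * A)` for all `ε > 0` is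
nonnegative. -/
theorem critTent_nonneg_of_forall {I A : ℝ} (hA : 0 ≤ A)
    (key : ∀ ε : ℝ, 0 < ε → -(ε * A) ≤ I) : 0 ≤ I := by
  by_contra hneg
  have hI : I < 0 := not_le.mp hneg
  have hA1 : 0 < 2 * (A + 1) := by linarith
  have hε : 0 < -I / (2 * (A + 1)) := div_pos (by linarith) hA1
  have k := key _ hε
  have h2 : -I / (2 * (A + 1)) * A ≤ -I / 2 := by
    rw [div_mul_eq_mul_div, div_le_div_iff₀ hA1 (by norm_num)]
    nlinarith
  linarith

/-- **Positivity criterion, full cone.**  A linear functional `l ↦ ∫ φ l` on `[0,1]` that is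
nonnegative on `1 - y`, on `y` and on all tents `tentG c`, `c ∈ [0,1]`, is nonnegative on
every continuous concave nonnegative `l`. -/
theorem concave_pos_functional_tent (φ : ℝ → ℝ) (hφ : IntervalIntegrable φ volume 0 1)
    (h0 : 0 ≤ ∫ y in (0:ℝ)..1, φ y * (1 - y))
    (h1 : 0 ≤ ∫ y in (0:ℝ)..1, φ y * y)
    (hg : ∀ c ∈ Icc (0:ℝ) 1, 0 ≤ ∫ y in (0:ℝ)..1, φ y * tentG c y)
    (l : ℝ → ℝ) (hcont : ContinuousOn l (Icc (0:ℝ) 1)) (hc : ConcaveOn ℝ (Icc (0:ℝ) 1) l)
    (hl0 : ∀ y ∈ Icc (0:ℝ) 1, 0 ≤ l y) :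
    0 ≤ ∫ y in (0:ℝ)..1, φ y * l y := by
  have h01 : (0:ℝ) ≤ 1 := zero_le_one
  have huIcc : uIcc (0:ℝ) 1 = Icc 0 1 := uIcc_of_le h01
  have hl0' : 0 ≤ l 0 := hl0 0 (by simp)
  have hl1' : 0 ≤ l 1 := hl0 1 (by simp)
  have hφl : IntervalIntegrable (fun y => φ y * l y) volume 0 1 :=
    hφ.mul_continuousOn (by rw [huIcc]; exact hcont)
  have hA : 0 ≤ ∫ y in (0:ℝ)..1, |φ y| :=
    intervalIntegral.integral_nonneg h01 fun y _ => abs_nonneg _
  refine critTent_nonneg_of_forall hA ?_
  intro ε hε
  obtain ⟨n, w, c, hw, hcI, happ⟩ := tent_approx l hcont hc ε hε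
  have hTc : Continuous fun y : ℝ => ∑ i, w i * tentG (c i) y :=
    continuous_finsetSum _ fun i _ => continuous_const.mul (critTent_tentG_continuous (c i))
  have hSc : Continuous fun y : ℝ => l 0 * (1 - y) + l 1 * y + ∑ i, w i * tentG (c i) y :=
    ((continuous_const.mul (continuous_const.sub continuous_id)).add
      (continuous_const.mul continuous_id)).add hTc
  have hφS : IntervalIntegrable
      (fun y => φ y * (l 0 * (1 - y) + l 1 * y + ∑ i, w i * tentG (c i) y)) volume 0 1 :=
    hφ.mul_continuousOn hSc.continuousOn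
  have ha : IntervalIntegrable (fun y => φ y * (1 - y)) volume 0 1 :=
    hφ.mul_continuousOn (continuous_const.sub continuous_id).continuousOn
  have hb : IntervalIntegrable (fun y => φ y * y) volume 0 1 :=
    hφ.mul_continuousOn continuous_id.continuousOn
  have hi : ∀ i, IntervalIntegrable (fun y => φ y * tentG (c i) y) volume 0 1 := fun i =>
    hφ.mul_continuousOn (critTent_tentG_continuous (c i)).continuousOn
  have hsum : IntervalIntegrable (fun y => ∑ i, w i * (φ y * tentG (c i) y)) volume 0 1 := by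
    have e : (fun y => ∑ i, w i * (φ y * tentG (c i) y)) =
        fun y => φ y * ∑ i, w i * tentG (c i) y := by
      funext y
      rw [Finset.mul_sum]
      exact Finset.sum_congr rfl fun i _ => by ring
    rw [e]
    exact hφ.mul_continuousOn hTc.continuousOn
  have hS : ∫ y in (0:ℝ)..1, φ y * (l 0 * (1 - y) + l 1 * y + ∑ i, w i * tentG (c i) y) =
      l 0 * (∫ y in (0:ℝ)..1, φ y * (1 - y)) + l 1 * (∫ y in (0:ℝ)..1, φ y * y) +
        ∑ i, w i * ∫ y in (0:ℝ)..1, φ y * tentG (c i) y := by
    have e : ∀ y, φ y * (l 0 * (1 - y) + l 1 * y + ∑ i, w i * tentG (c i) y) =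
        l 0 * (φ y * (1 - y)) + l 1 * (φ y * y) + ∑ i, w i * (φ y * tentG (c i) y) := by
      intro y
      rw [mul_add, Finset.mul_sum]
      congr 1
      · ring
      · exact Finset.sum_congr rfl fun i _ => by ring
    simp only [e]
    rw [intervalIntegral.integral_add ((ha.const_mul _).add (hb.const_mul _)) hsum,
      intervalIntegral.integral_add (ha.const_mul _) (hb.const_mul _),
      intervalIntegral.integral_const_mul, intervalIntegral.integral_const_mul,
      intervalIntegral.integral_finsetSum (fun i _ => (hi i).const_mul _)]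
    simp only [intervalIntegral.integral_const_mul]
  have hSnn : 0 ≤ ∫ y in (0:ℝ)..1,
      φ y * (l 0 * (1 - y) + l 1 * y + ∑ i, w i * tentG (c i) y) := by
    rw [hS]
    have s1 := mul_nonneg hl0' h0
    have s2 := mul_nonneg hl1' h1
    have s3 : 0 ≤ ∑ i, w i * ∫ y in (0:ℝ)..1, φ y * tentG (c i) y :=
      Finset.sum_nonneg fun i _ => mul_nonneg (hw i) (hg (c i) (hcI i))
    linarith
  have hdiff : |∫ y in (0:ℝ)..1, (φ y * l y -
      φ y * (l 0 * (1 - y) + l 1 * y + ∑ i, w i * tentG (c i) y))| ≤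
      ε * ∫ y in (0:ℝ)..1, |φ y| := by
    have hb' : IntervalIntegrable (fun y => ε * |φ y|) volume 0 1 := hφ.abs.const_mul _
    have hae : ∀ᵐ y ∂(volume : Measure ℝ), y ∈ Set.Ioc (0:ℝ) 1 →
        ‖φ y * l y - φ y * (l 0 * (1 - y) + l 1 * y + ∑ i, w i * tentG (c i) y)‖ ≤
          ε * |φ y| := by
      refine Filter.Eventually.of_forall fun y hy => ?_
      have hy' : y ∈ Icc (0:ℝ) 1 := ⟨hy.1.le, hy.2⟩
      have hle := happ y hy'
      rw [← mul_sub, norm_mul, Real.norm_eq_abs, Real.norm_eq_abs, mul_comm]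
      exact mul_le_mul_of_nonneg_right hle (abs_nonneg _)
    have hn := intervalIntegral.norm_integral_le_of_norm_le h01 hae hb'
    rw [Real.norm_eq_abs, intervalIntegral.integral_const_mul] at hn
    exact hn
  rw [intervalIntegral.integral_sub hφl hφS] at hdiff
  have h3 := abs_le.mp hdiff
  linarith [h3.1]

end Vale.Agent.Lib.P254.Wedge
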