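import Mathlib
import Vale.Agent.Lib.P254.Wedge.Form

/-!
# P254, the wedge class: weighted integrals of the generators of the full cone:
`1 - y`, `y` and the tents `tentG c y = min (y (1 - c)) (c (1 - y))`
-/

namespace Vale.Agent.Lib.P254.Wedge

open MeasureTheory intervalIntegral

theorem tentG_continuous (c : ℝ) : Continuous (tentG c) := by
  unfold tentG
  fun_prop

theorem tentG_nonneg {c y : ℝ} (hc0 : 0 ≤ c) (hc1 : c ≤ 1) (hy0 : 0 ≤ y) (hy1 : y ≤ 1) :
    0 ≤ tentG c y := by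
  unfold tentG
  exact le_min (mul_nonneg hy0 (by linarith)) (mul_nonneg hc0 (by linarith))

/-- Left of the kink the tent is `y (1 - c)`. -/
private theorem tentG_of_le {c y : ℝ} (h : y ≤ c) : tentG c y = y * (1 - c) := by
  unfold tentG
  exact min_eq_left (by nlinarith)

/-- Right of the kink the tent is `c (1 - y)`. -/
private theorem tentG_of_ge {c y : ℝ} (h : c ≤ y) : tentG c y = c * (1 - y) := by
  unfold tentG
  exact min_eq_right (by nlinarith)

/-- Integral of a quintic polynomial over an interval. -/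
private theorem integral_quintic (u v c0 c1 c2 c3 c4 c5 : ℝ) :
    ∫ y in u..v, (c0 + c1 * y + c2 * y ^ 2 + c3 * y ^ 3 + c4 * y ^ 4 + c5 * y ^ 5) =
      c0 * (v - u) + c1 * (v ^ 2 - u ^ 2) / 2 + c2 * (v ^ 3 - u ^ 3) / 3
        + c3 * (v ^ 4 - u ^ 4) / 4 + c4 * (v ^ 5 - u ^ 5) / 5 + c5 * (v ^ 6 - u ^ 6) / 6 := by
  have e : ∀ f : ℝ → ℝ, Continuous f → IntervalIntegrable f volume u v :=
    fun f hf => hf.intervalIntegrable _ _
  rw [integral_add (e _ (by fun_prop)) (e _ (by fun_prop)),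
    integral_add (e _ (by fun_prop)) (e _ (by fun_prop)),
    integral_add (e _ (by fun_prop)) (e _ (by fun_prop)),
    integral_add (e _ (by fun_prop)) (e _ (by fun_prop)),
    integral_add (e _ (by fun_prop)) (e _ (by fun_prop))]
  have h1 : ∫ y in u..v, c1 * y = c1 * ((v ^ 2 - u ^ 2) / 2) := by
    rw [intervalIntegral.integral_const_mul, integral_id]
  rw [h1]
  simp only [intervalIntegral.integral_const_mul, integral_pow,
    intervalIntegral.integral_const, smul_eq_mul]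
  norm_num
  ring

/-- Integral of a function that agrees with a quintic polynomial on the interval. -/
private theorem int_poly (f : ℝ → ℝ) (u v : ℝ) (huv : u ≤ v) (c0 c1 c2 c3 c4 c5 : ℝ)
    (h : ∀ y, u ≤ y → y ≤ v →
      f y = c0 + c1 * y + c2 * y ^ 2 + c3 * y ^ 3 + c4 * y ^ 4 + c5 * y ^ 5) :
    ∫ y in u..v, f y = c0 * (v - u) + c1 * (v ^ 2 - u ^ 2) / 2 + c2 * (v ^ 3 - u ^ 3) / 3
        + c3 * (v ^ 4 - u ^ 4) / 4 + c4 * (v ^ 5 - u ^ 5) / 5 + c5 * (v ^ 6 - u ^ 6) / 6 := by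
  rw [← integral_quintic]
  apply integral_congr
  intro y hy
  rw [Set.uIcc_of_le huv] at hy
  exact h y hy.1 hy.2

theorem mom1_e0 : mom 1 (fun y : ℝ => 1 - y) = 1 / 6 := by
  have h0 : mom 1 (fun y : ℝ => 1 - y) = ∫ y in (0:ℝ)..1, (fun y : ℝ => y ^ 1 * (1 - y)) y := rfl
  rw [h0, int_poly (fun y : ℝ => y ^ 1 * (1 - y)) 0 1 zero_le_one 0 1 (-1) 0 0 0
    (fun y _ _ => by ring)]
  norm_num

theorem mom2_e0 : mom 2 (fun y : ℝ => 1 - y) = 1 / 12 := by
  have h0 : mom 2 (fun y : ℝ => 1 - y) = ∫ y in (0:ℝ)..1, (fun y : ℝ => y ^ 2 * (1 - y)) y := rfl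
  rw [h0, int_poly (fun y : ℝ => y ^ 2 * (1 - y)) 0 1 zero_le_one 0 0 1 (-1) 0 0
    (fun y _ _ => by ring)]
  norm_num

theorem mom3_e0 : mom 3 (fun y : ℝ => 1 - y) = 1 / 20 := by
  have h0 : mom 3 (fun y : ℝ => 1 - y) = ∫ y in (0:ℝ)..1, (fun y : ℝ => y ^ 3 * (1 - y)) y := rfl
  rw [h0, int_poly (fun y : ℝ => y ^ 3 * (1 - y)) 0 1 zero_le_one 0 0 0 1 (-1) 0
    (fun y _ _ => by ring)]
  norm_num

theorem mom1_e1 : mom 1 (fun y : ℝ => y) = 1 / 3 := by
  have h0 : mom 1 (fun y : ℝ => y) = ∫ y in (0:ℝ)..1, (fun y : ℝ => y ^ 1 * y) y := rfl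
  rw [h0, int_poly (fun y : ℝ => y ^ 1 * y) 0 1 zero_le_one 0 0 1 0 0 0
    (fun y _ _ => by ring)]
  norm_num

theorem mom2_e1 : mom 2 (fun y : ℝ => y) = 1 / 4 := by
  have h0 : mom 2 (fun y : ℝ => y) = ∫ y in (0:ℝ)..1, (fun y : ℝ => y ^ 2 * y) y := rfl
  rw [h0, int_poly (fun y : ℝ => y ^ 2 * y) 0 1 zero_le_one 0 0 0 1 0 0
    (fun y _ _ => by ring)]
  norm_num

theorem mom3_e1 : mom 3 (fun y : ℝ => y) = 1 / 5 := by
  have h0 : mom 3 (fun y : ℝ => y) = ∫ y in (0:ℝ)..1, (fun y : ℝ => y ^ 3 * y) y := rfl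
  rw [h0, int_poly (fun y : ℝ => y ^ 3 * y) 0 1 zero_le_one 0 0 0 0 1 0
    (fun y _ _ => by ring)]
  norm_num

theorem mom1_tent {c : ℝ} (hc0 : 0 ≤ c) (hc1 : c ≤ 1) :
    mom 1 (tentG c) = c / 6 - c ^ 3 / 6 := by
  have hf : Continuous (fun y : ℝ => y ^ 1 * tentG c y) :=
    (continuous_pow 1).mul (tentG_continuous c)
  have h0 : mom 1 (tentG c) = ∫ y in (0:ℝ)..1, (fun y : ℝ => y ^ 1 * tentG c y) y := rfl
  rw [h0, ← integral_add_adjacent_intervals (hf.intervalIntegrable 0 c)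
    (hf.intervalIntegrable c 1),
    int_poly (fun y : ℝ => y ^ 1 * tentG c y) 0 c hc0 0 0 (1 - c) 0 0 0
      (fun y _ hy => by simp only [tentG_of_le hy]; ring),
    int_poly (fun y : ℝ => y ^ 1 * tentG c y) c 1 hc1 0 c (-c) 0 0 0
      (fun y hy _ => by simp only [tentG_of_ge hy]; ring)]
  ring

theorem mom2_tent {c : ℝ} (hc0 : 0 ≤ c) (hc1 : c ≤ 1) :
    mom 2 (tentG c) = c / 12 - c ^ 4 / 12 := by
  have hf : Continuous (fun y : ℝ => y ^ 2 * tentG c y) :=
    (continuous_pow 2).mul (tentG_continuous c)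
  have h0 : mom 2 (tentG c) = ∫ y in (0:ℝ)..1, (fun y : ℝ => y ^ 2 * tentG c y) y := rfl
  rw [h0, ← integral_add_adjacent_intervals (hf.intervalIntegrable 0 c)
    (hf.intervalIntegrable c 1),
    int_poly (fun y : ℝ => y ^ 2 * tentG c y) 0 c hc0 0 0 0 (1 - c) 0 0
      (fun y _ hy => by simp only [tentG_of_le hy]; ring),
    int_poly (fun y : ℝ => y ^ 2 * tentG c y) c 1 hc1 0 0 c (-c) 0 0
      (fun y hy _ => by simp only [tentG_of_ge hy]; ring)]
  ring

theorem mom3_tent {c : ℝ} (hc0 : 0 ≤ c) (hc1 : c ≤ 1) :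
    mom 3 (tentG c) = c / 20 - c ^ 5 / 20 := by
  have hf : Continuous (fun y : ℝ => y ^ 3 * tentG c y) :=
    (continuous_pow 3).mul (tentG_continuous c)
  have h0 : mom 3 (tentG c) = ∫ y in (0:ℝ)..1, (fun y : ℝ => y ^ 3 * tentG c y) y := rfl
  rw [h0, ← integral_add_adjacent_intervals (hf.intervalIntegrable 0 c)
    (hf.intervalIntegrable c 1),
    int_poly (fun y : ℝ => y ^ 3 * tentG c y) 0 c hc0 0 0 0 0 (1 - c) 0
      (fun y _ hy => by simp only [tentG_of_le hy]; ring),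
    int_poly (fun y : ℝ => y ^ 3 * tentG c y) c 1 hc1 0 0 0 c (-c) 0
      (fun y hy _ => by simp only [tentG_of_ge hy]; ring)]
  ring

theorem wS_e0_e0 : wS (fun y : ℝ => 1 - y) (fun y : ℝ => 1 - y) = 1 / 12 := by
  have h0 : wS (fun y : ℝ => 1 - y) (fun y : ℝ => 1 - y)
      = ∫ y in (0:ℝ)..1, (fun y : ℝ => y * ((1 - y) * (1 - y))) y := rfl
  rw [h0, int_poly (fun y : ℝ => y * ((1 - y) * (1 - y))) 0 1 zero_le_one 0 1 (-2) 1 0 0
    (fun y _ _ => by ring)]
  norm_num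

theorem wS_e0_e1 : wS (fun y : ℝ => 1 - y) (fun y : ℝ => y) = 1 / 12 := by
  have h0 : wS (fun y : ℝ => 1 - y) (fun y : ℝ => y)
      = ∫ y in (0:ℝ)..1, (fun y : ℝ => y * ((1 - y) * y)) y := rfl
  rw [h0, int_poly (fun y : ℝ => y * ((1 - y) * y)) 0 1 zero_le_one 0 0 1 (-1) 0 0
    (fun y _ _ => by ring)]
  norm_num

theorem wS_e1_e1 : wS (fun y : ℝ => y) (fun y : ℝ => y) = 1 / 4 := by
  have h0 : wS (fun y : ℝ => y) (fun y : ℝ => y)
      = ∫ y in (0:ℝ)..1, (fun y : ℝ => y * (y * y)) y := rfl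
  rw [h0, int_poly (fun y : ℝ => y * (y * y)) 0 1 zero_le_one 0 0 0 1 0 0
    (fun y _ _ => by ring)]
  norm_num

theorem wS_e0_tent {c : ℝ} (hc0 : 0 ≤ c) (hc1 : c ≤ 1) :
    wS (fun y : ℝ => 1 - y) (tentG c) = c / 12 - c ^ 3 / 6 + c ^ 4 / 12 := by
  have hf : Continuous (fun y : ℝ => y * ((1 - y) * tentG c y)) :=
    continuous_id.mul ((continuous_const.sub continuous_id).mul (tentG_continuous c))
  have h0 : wS (fun y : ℝ => 1 - y) (tentG c)
      = ∫ y in (0:ℝ)..1, (fun y : ℝ => y * ((1 - y) * tentG c y)) y := rfl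
  rw [h0, ← integral_add_adjacent_intervals (hf.intervalIntegrable 0 c)
    (hf.intervalIntegrable c 1),
    int_poly (fun y : ℝ => y * ((1 - y) * tentG c y)) 0 c hc0 0 0 (1 - c) (-(1 - c)) 0 0
      (fun y _ hy => by simp only [tentG_of_le hy]; ring),
    int_poly (fun y : ℝ => y * ((1 - y) * tentG c y)) c 1 hc1 0 c (-2 * c) c 0 0
      (fun y hy _ => by simp only [tentG_of_ge hy]; ring)]
  ring

theorem wS_e1_tent {c : ℝ} (hc0 : 0 ≤ c) (hc1 : c ≤ 1) :
    wS (fun y : ℝ => y) (tentG c) = c / 12 - c ^ 4 / 12 := by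
  have hf : Continuous (fun y : ℝ => y * (y * tentG c y)) :=
    continuous_id.mul (continuous_id.mul (tentG_continuous c))
  have h0 : wS (fun y : ℝ => y) (tentG c)
      = ∫ y in (0:ℝ)..1, (fun y : ℝ => y * (y * tentG c y)) y := rfl
  rw [h0, ← integral_add_adjacent_intervals (hf.intervalIntegrable 0 c)
    (hf.intervalIntegrable c 1),
    int_poly (fun y : ℝ => y * (y * tentG c y)) 0 c hc0 0 0 0 (1 - c) 0 0
      (fun y _ hy => by simp only [tentG_of_le hy]; ring),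
    int_poly (fun y : ℝ => y * (y * tentG c y)) c 1 hc1 0 0 c (-c) 0 0
      (fun y hy _ => by simp only [tentG_of_ge hy]; ring)]
  ring

theorem wS_tent_tent {c d : ℝ} (hc0 : 0 ≤ c) (hcd : c ≤ d) (hd1 : d ≤ 1) :
    wS (tentG c) (tentG d)
      = c * d / 12 - c * d ^ 3 / 6 - c ^ 4 / 12 + c * d ^ 4 / 12 + c ^ 4 * d / 12 := by
  have hf : Continuous (fun y : ℝ => y * (tentG c y * tentG d y)) :=
    continuous_id.mul ((tentG_continuous c).mul (tentG_continuous d))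
  have h0 : wS (tentG c) (tentG d)
      = ∫ y in (0:ℝ)..1, (fun y : ℝ => y * (tentG c y * tentG d y)) y := rfl
  rw [h0, ← integral_add_adjacent_intervals (hf.intervalIntegrable 0 d)
    (hf.intervalIntegrable d 1),
    ← integral_add_adjacent_intervals (hf.intervalIntegrable 0 c)
    (hf.intervalIntegrable c d),
    int_poly (fun y : ℝ => y * (tentG c y * tentG d y)) 0 c hc0
      0 0 0 ((1 - c) * (1 - d)) 0 0
      (fun y _ hy => by
        simp only [tentG_of_le hy, tentG_of_le (le_trans hy hcd)]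
        ring),
    int_poly (fun y : ℝ => y * (tentG c y * tentG d y)) c d hcd
      0 0 (c * (1 - d)) (-(c * (1 - d))) 0 0
      (fun y hy1 hy2 => by
        simp only [tentG_of_ge hy1, tentG_of_le hy2]
        ring),
    int_poly (fun y : ℝ => y * (tentG c y * tentG d y)) d 1 hd1
      0 (c * d) (-2 * (c * d)) (c * d) 0 0
      (fun y hy _ => by
        simp only [tentG_of_ge (le_trans hcd hy), tentG_of_ge hy]
        ring)]
  ring

end Vale.Agent.Lib.P254.Wedge
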