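import Mathlib
import Vale.Agent.Lib.P254.Wedge.TentMom
import Vale.Agent.Lib.P254.Wedge.CritTent

/-!
# P254, the wedge class: bounds on the mean, full cone
-/

namespace Vale.Agent.Lib.P254.Wedge

open MeasureTheory intervalIntegral Set

/-- The functional `f ↦ ∫ (a y² + b y) f` in terms of the moments. -/
theorem meanFull_split (a b : ℝ) (f : ℝ → ℝ) (hf : ContinuousOn f (Icc (0:ℝ) 1)) :
    ∫ y in (0:ℝ)..1, (a * y ^ 2 + b * y) * f y = a * mom 2 f + b * mom 1 f := by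
  have huIcc : uIcc (0:ℝ) 1 = Icc 0 1 := uIcc_of_le zero_le_one
  have h2 : IntervalIntegrable (fun y => y ^ 2 * f y) volume 0 1 := by
    apply ContinuousOn.intervalIntegrable
    rw [huIcc]
    exact (continuous_pow 2).continuousOn.mul hf
  have h1 : IntervalIntegrable (fun y => y ^ 1 * f y) volume 0 1 := by
    apply ContinuousOn.intervalIntegrable
    rw [huIcc]
    exact (continuous_pow 1).continuousOn.mul hf
  have e : ∀ y, (a * y ^ 2 + b * y) * f y = a * (y ^ 2 * f y) + b * (y ^ 1 * f y) := by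
    intro y
    ring
  simp only [e]
  rw [intervalIntegral.integral_add (h2.const_mul a) (h1.const_mul b),
    intervalIntegral.integral_const_mul, intervalIntegral.integral_const_mul]
  rfl

/-- The criterion for the functional `f ↦ a mom 2 f + b mom 1 f`. -/
theorem meanFull_crit (a b : ℝ) (h0 : 0 ≤ a * (1 / 12) + b * (1 / 6))
    (h1 : 0 ≤ a * (1 / 4) + b * (1 / 3))
    (hg : ∀ c ∈ Icc (0:ℝ) 1, 0 ≤ a * (c / 12 - c ^ 4 / 12) + b * (c / 6 - c ^ 3 / 6))
    (l : ℝ → ℝ) (hcont : ContinuousOn l (Icc (0:ℝ) 1))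
    (hconc : ConcaveOn ℝ (Icc (0:ℝ) 1) l) (hl0 : ∀ y ∈ Icc (0:ℝ) 1, 0 ≤ l y) :
    0 ≤ a * mom 2 l + b * mom 1 l := by
  have hφ : IntervalIntegrable (fun y : ℝ => a * y ^ 2 + b * y) volume 0 1 :=
    (by fun_prop : Continuous fun y : ℝ => a * y ^ 2 + b * y).intervalIntegrable _ _
  have k0 : 0 ≤ ∫ y in (0:ℝ)..1, (fun y : ℝ => a * y ^ 2 + b * y) y * (1 - y) := by
    have h := meanFull_split a b (fun y : ℝ => 1 - y)
      (continuous_const.sub continuous_id).continuousOn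
    rw [mom2_e0, mom1_e0] at h
    have h' : ∫ y in (0:ℝ)..1, (fun y : ℝ => a * y ^ 2 + b * y) y * (1 - y) =
        a * (1 / 12) + b * (1 / 6) := h
    rw [h']
    exact h0
  have k1 : 0 ≤ ∫ y in (0:ℝ)..1, (fun y : ℝ => a * y ^ 2 + b * y) y * y := by
    have h := meanFull_split a b (fun y : ℝ => y) continuous_id.continuousOn
    rw [mom2_e1, mom1_e1] at h
    have h' : ∫ y in (0:ℝ)..1, (fun y : ℝ => a * y ^ 2 + b * y) y * y =
        a * (1 / 4) + b * (1 / 3) := h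
    rw [h']
    exact h1
  have kg : ∀ c ∈ Icc (0:ℝ) 1,
      0 ≤ ∫ y in (0:ℝ)..1, (fun y : ℝ => a * y ^ 2 + b * y) y * tentG c y := by
    intro c hc
    have h := meanFull_split a b (tentG c) (tentG_continuous c).continuousOn
    rw [mom2_tent hc.1 hc.2, mom1_tent hc.1 hc.2] at h
    have h' : ∫ y in (0:ℝ)..1, (fun y : ℝ => a * y ^ 2 + b * y) y * tentG c y =
        a * (c / 12 - c ^ 4 / 12) + b * (c / 6 - c ^ 3 / 6) := h
    rw [h']
    exact hg c hc
  have key := concave_pos_functional_tent (fun y : ℝ => a * y ^ 2 + b * y) hφ k0 k1 kg l hcont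
    hconc hl0
  have key' : 0 ≤ ∫ y in (0:ℝ)..1, (a * y ^ 2 + b * y) * l y := key
  rw [meanFull_split a b l hcont] at key'
  exact key'

theorem mom_lo_full (l : ℝ → ℝ) (hcont : ContinuousOn l (Icc (0:ℝ) 1))
    (hconc : ConcaveOn ℝ (Icc (0:ℝ) 1) l) (hl0 : ∀ y ∈ Icc (0:ℝ) 1, 0 ≤ l y) :
    mom 1 l / 2 ≤ mom 2 l := by
  have h := meanFull_crit 1 (-(1 / 2)) (by norm_num) (by norm_num)
    (by
      intro c hc
      have e : (1 : ℝ) * (c / 12 - c ^ 4 / 12) + -(1 / 2) * (c / 6 - c ^ 3 / 6) =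
          c ^ 3 * (1 - c) / 12 := by ring
      rw [e]
      exact div_nonneg (mul_nonneg (pow_nonneg hc.1 3) (by linarith [hc.2])) (by norm_num))
    l hcont hconc hl0
  linarith

theorem mom_hi_full (l : ℝ → ℝ) (hcont : ContinuousOn l (Icc (0:ℝ) 1))
    (hconc : ConcaveOn ℝ (Icc (0:ℝ) 1) l) (hl0 : ∀ y ∈ Icc (0:ℝ) 1, 0 ≤ l y) :
    mom 2 l ≤ 3 / 4 * mom 1 l := by
  have h := meanFull_crit (-1) (3 / 4) (by norm_num) (by norm_num)
    (by
      intro c hc
      have e : (-1 : ℝ) * (c / 12 - c ^ 4 / 12) + 3 / 4 * (c / 6 - c ^ 3 / 6) =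
          c * (1 - c) ^ 2 * (1 + 2 * c) / 24 := by ring
      rw [e]
      exact div_nonneg (mul_nonneg (mul_nonneg hc.1 (sq_nonneg _)) (by linarith [hc.1]))
        (by norm_num))
    l hcont hconc hl0
  linarith

end Vale.Agent.Lib.P254.Wedge
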