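import Mathlib
import Vale.Agent.Lib.P254.Wedge.Form

/-!
# P254, the wedge class: the polar form as a linear functional
-/

namespace Vale.Agent.Lib.P254.Wedge

open MeasureTheory intervalIntegral

/-- The kernel is interval integrable when `f` is. -/
theorem wKer_intervalIntegrable (f : ℝ → ℝ) (hf : IntervalIntegrable f volume 0 1) :
    IntervalIntegrable (wKer f) volume 0 1 := by
  have hc : Continuous (fun y : ℝ => 9 * mom 1 f * y + 36 * mom 2 f * y ^ 2
      - 6 * (mom 2 f * y + mom 1 f * y ^ 2)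
      - 15 * (mom 3 f * y + mom 1 f * y ^ 3)) := by
    fun_prop
  have hyf : IntervalIntegrable (fun y => y * f y) volume 0 1 :=
    hf.continuousOn_mul continuousOn_id
  exact (hc.intervalIntegrable 0 1).sub hyf

/-- `wB f g = ∫₀¹ wKer f * g`. -/
theorem wB_eq_integral_wKer (f g : ℝ → ℝ) (hg : IntervalIntegrable g volume 0 1)
    (hfg : IntervalIntegrable (fun y => f y * g y) volume 0 1) :
    wB f g = ∫ y in (0:ℝ)..1, wKer f y * g y := by
  have hg1 : IntervalIntegrable (fun y => y ^ 1 * g y) volume 0 1 :=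
    hg.continuousOn_mul (by fun_prop)
  have hg2 : IntervalIntegrable (fun y => y ^ 2 * g y) volume 0 1 :=
    hg.continuousOn_mul (by fun_prop)
  have hg3 : IntervalIntegrable (fun y => y ^ 3 * g y) volume 0 1 :=
    hg.continuousOn_mul (by fun_prop)
  have hyfg : IntervalIntegrable (fun y => y * (f y * g y)) volume 0 1 :=
    hfg.continuousOn_mul continuousOn_id
  have hpt : ∀ y, wKer f y * g y
      = (9 * mom 1 f - 6 * mom 2 f - 15 * mom 3 f) * (y ^ 1 * g y)
        + (36 * mom 2 f - 6 * mom 1 f) * (y ^ 2 * g y)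
        + (-15 * mom 1 f) * (y ^ 3 * g y)
        - y * (f y * g y) := by
    intro y
    unfold wKer
    ring
  have e1 : ∫ y in (0:ℝ)..1, wKer f y * g y
      = (9 * mom 1 f - 6 * mom 2 f - 15 * mom 3 f) * (∫ y in (0:ℝ)..1, y ^ 1 * g y)
        + (36 * mom 2 f - 6 * mom 1 f) * (∫ y in (0:ℝ)..1, y ^ 2 * g y)
        + (-15 * mom 1 f) * (∫ y in (0:ℝ)..1, y ^ 3 * g y)
        - ∫ y in (0:ℝ)..1, y * (f y * g y) := by
    rw [integral_congr (fun y _ => hpt y)]
    rw [integral_sub (((hg1.const_mul _).add (hg2.const_mul _)).add (hg3.const_mul _)) hyfg,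
      integral_add ((hg1.const_mul _).add (hg2.const_mul _)) (hg3.const_mul _),
      integral_add (hg1.const_mul _) (hg2.const_mul _),
      intervalIntegral.integral_const_mul, intervalIntegral.integral_const_mul,
      intervalIntegral.integral_const_mul]
  rw [e1]
  unfold wB wS
  have m1 : mom 1 g = ∫ y in (0:ℝ)..1, y ^ 1 * g y := rfl
  have m2 : mom 2 g = ∫ y in (0:ℝ)..1, y ^ 2 * g y := rfl
  have m3 : mom 3 g = ∫ y in (0:ℝ)..1, y ^ 3 * g y := rfl
  rw [← m1, ← m2, ← m3]
  ring

end Vale.Agent.Lib.P254.Wedge
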