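import Mathlib
import Vale.Agent.Lib.P254.Wedge.RampMom

/-!
# P254, the wedge class: the polar form on the generators `1`, `H75.ramp a`
-/

namespace Vale.Agent.Lib.P254.Wedge

theorem wB_one_one : wB (fun _ => (1:ℝ)) (fun _ => (1:ℝ)) = 0 := by
  unfold wB
  rw [mom1_one, mom2_one, mom3_one, wS_one_one]
  norm_num

theorem wB_one_ramp {a : ℝ} (ha0 : 0 ≤ a) (ha1 : a ≤ 1) :
    wB (fun _ => (1:ℝ)) (H75.ramp a) = 3 / 8 * (1 - a) ^ 3 * a ^ 2 := by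
  unfold wB
  rw [mom1_one, mom2_one, mom3_one, mom1_ramp ha0 ha1, mom2_ramp ha0 ha1, mom3_ramp ha0 ha1,
    wS_one_ramp ha0 ha1]
  ring

theorem wB_one_ramp_nonneg {a : ℝ} (ha0 : 0 ≤ a) (ha1 : a ≤ 1) :
    0 ≤ wB (fun _ => (1:ℝ)) (H75.ramp a) := by
  rw [wB_one_ramp ha0 ha1]
  have h1 : 0 ≤ 1 - a := by linarith
  positivity

theorem wB_ramp_one_nonneg {a : ℝ} (ha0 : 0 ≤ a) (ha1 : a ≤ 1) :
    0 ≤ wB (H75.ramp a) (fun _ => (1:ℝ)) := by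
  rw [wB_comm]
  exact wB_one_ramp_nonneg ha0 ha1

/-- The Bernstein form of the polar form on two ramps, `b ≤ a`. -/
theorem wB_ramp_ramp_eq {a b : ℝ} (hb0 : 0 ≤ b) (hba : b ≤ a) (ha1 : a ≤ 1) :
    wB (H75.ramp a) (H75.ramp b)
      = 3 / 8 * (1 - a) ^ 5 * (a - b) ^ 2 * b + 5 / 8 * (1 - a) ^ 5 * (a - b) * b ^ 2
        + 5 / 12 * (1 - a) ^ 5 * b ^ 3 + 3 / 4 * (1 - a) ^ 4 * (a - b) ^ 3 * b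
        + 19 / 8 * (1 - a) ^ 4 * (a - b) ^ 2 * b ^ 2 + 19 / 8 * (1 - a) ^ 4 * (a - b) * b ^ 3
        + 2 / 3 * (1 - a) ^ 4 * b ^ 4 + 3 / 8 * (1 - a) ^ 3 * (a - b) ^ 4 * b
        + 3 * (1 - a) ^ 3 * (a - b) ^ 3 * b ^ 2 + 13 / 3 * (1 - a) ^ 3 * (a - b) ^ 2 * b ^ 3
        + 47 / 24 * (1 - a) ^ 3 * (a - b) * b ^ 4 + 1 / 4 * (1 - a) ^ 3 * b ^ 5
        + 15 / 8 * (1 - a) ^ 2 * (a - b) ^ 4 * b ^ 2 + 15 / 4 * (1 - a) ^ 2 * (a - b) ^ 3 * b ^ 3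
        + 9 / 4 * (1 - a) ^ 2 * (a - b) ^ 2 * b ^ 4 + 3 / 8 * (1 - a) ^ 2 * (a - b) * b ^ 5
        + 3 / 4 * (1 - a) * (a - b) ^ 5 * b ^ 2 + 15 / 8 * (1 - a) * (a - b) ^ 4 * b ^ 3
        + 3 / 2 * (1 - a) * (a - b) ^ 3 * b ^ 4 + 3 / 8 * (1 - a) * (a - b) ^ 2 * b ^ 5
        + 1 / 8 * (a - b) ^ 6 * b ^ 2 + 3 / 8 * (a - b) ^ 5 * b ^ 3
        + 3 / 8 * (a - b) ^ 4 * b ^ 4 + 1 / 8 * (a - b) ^ 3 * b ^ 5 := by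
  have ha0 : 0 ≤ a := le_trans hb0 hba
  have hb1 : b ≤ 1 := le_trans hba ha1
  unfold wB
  rw [mom1_ramp ha0 ha1, mom2_ramp ha0 ha1, mom3_ramp ha0 ha1, mom1_ramp hb0 hb1,
    mom2_ramp hb0 hb1, mom3_ramp hb0 hb1, wS_ramp_ramp hb0 hba ha1]
  ring

/-- Nonnegativity of the Bernstein form for nonnegative arguments. -/
theorem wB_bernstein_nonneg {u v w : ℝ} (hu : 0 ≤ u) (hv : 0 ≤ v) (hw : 0 ≤ w) :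
    0 ≤ 3 / 8 * u ^ 5 * v ^ 2 * w + 5 / 8 * u ^ 5 * v * w ^ 2
        + 5 / 12 * u ^ 5 * w ^ 3 + 3 / 4 * u ^ 4 * v ^ 3 * w
        + 19 / 8 * u ^ 4 * v ^ 2 * w ^ 2 + 19 / 8 * u ^ 4 * v * w ^ 3
        + 2 / 3 * u ^ 4 * w ^ 4 + 3 / 8 * u ^ 3 * v ^ 4 * w
        + 3 * u ^ 3 * v ^ 3 * w ^ 2 + 13 / 3 * u ^ 3 * v ^ 2 * w ^ 3
        + 47 / 24 * u ^ 3 * v * w ^ 4 + 1 / 4 * u ^ 3 * w ^ 5
        + 15 / 8 * u ^ 2 * v ^ 4 * w ^ 2 + 15 / 4 * u ^ 2 * v ^ 3 * w ^ 3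
        + 9 / 4 * u ^ 2 * v ^ 2 * w ^ 4 + 3 / 8 * u ^ 2 * v * w ^ 5
        + 3 / 4 * u * v ^ 5 * w ^ 2 + 15 / 8 * u * v ^ 4 * w ^ 3
        + 3 / 2 * u * v ^ 3 * w ^ 4 + 3 / 8 * u * v ^ 2 * w ^ 5
        + 1 / 8 * v ^ 6 * w ^ 2 + 3 / 8 * v ^ 5 * w ^ 3
        + 3 / 8 * v ^ 4 * w ^ 4 + 1 / 8 * v ^ 3 * w ^ 5 := by
  positivity

/-- The polar form is nonnegative on two ramps, `b ≤ a`. -/
theorem wB_ramp_ramp_nonneg_of_le {a b : ℝ} (hb0 : 0 ≤ b) (hba : b ≤ a) (ha1 : a ≤ 1) :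
    0 ≤ wB (H75.ramp a) (H75.ramp b) := by
  rw [wB_ramp_ramp_eq hb0 hba ha1]
  exact wB_bernstein_nonneg (by linarith) (by linarith) hb0

theorem wB_ramp_ramp_nonneg {a b : ℝ} (ha0 : 0 ≤ a) (ha1 : a ≤ 1) (hb0 : 0 ≤ b)
    (hb1 : b ≤ 1) : 0 ≤ wB (H75.ramp a) (H75.ramp b) := by
  rcases le_total b a with h | h
  · exact wB_ramp_ramp_nonneg_of_le hb0 h ha1
  · rw [wB_comm]
    exact wB_ramp_ramp_nonneg_of_le ha0 h hb1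

end Vale.Agent.Lib.P254.Wedge
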