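import Mathlib
import Vale.Agent.Lib.P254.Wedge.PolarRamp
import Vale.Agent.Lib.P254.Wedge.Ker
import Vale.Agent.Lib.P254.PWJ.Quad.ConcavePos

/-!
# P254, the wedge class: the quadratic form is nonnegative on concave antitone functions
-/

namespace Vale.Agent.Lib.P254.Wedge

open MeasureTheory intervalIntegral Set

/-- The integral of the kernel is the polar form against the constant one. -/
private lemma integral_wKer (f : ℝ → ℝ) (hf : IntervalIntegrable f volume 0 1) :
    ∫ y in (0:ℝ)..1, wKer f y = wB f (fun _ => 1) := by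
  have h := wB_eq_integral_wKer f (fun _ => 1) intervalIntegrable_const
    (by simpa using hf)
  rw [h]
  apply integral_congr
  intro y _
  ring

/-- The integral of the kernel against a ramp is the polar form against the ramp. -/
private lemma integral_wKer_mul_ramp (f : ℝ → ℝ) (hf : IntervalIntegrable f volume 0 1)
    (a : ℝ) : ∫ y in (0:ℝ)..1, wKer f y * H75.ramp a y = wB f (H75.ramp a) := by
  have hfr : IntervalIntegrable (fun y => f y * H75.ramp a y) volume 0 1 :=
    hf.mul_continuousOn (H75.ramp_continuous a).continuousOn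
  exact (wB_eq_integral_wKer f (H75.ramp a) ((H75.ramp_continuous a).intervalIntegrable 0 1)
    hfr).symm

/-- `D(l) ≥ 0` for `l ≥ 0` concave and antitone on `[0,1]`. -/
theorem wB_self_nonneg_anti (l : ℝ → ℝ) (hl0 : ∀ y ∈ Icc (0:ℝ) 1, 0 ≤ l y)
    (hanti : AntitoneOn l (Icc 0 1)) (hconc : ConcaveOn ℝ (Icc 0 1) l) :
    0 ≤ wB l l := by
  have hli : IntervalIntegrable l volume 0 1 :=
    AntitoneOn.intervalIntegrable (by rw [uIcc_of_le zero_le_one]; exact hanti)
  have hci : IntervalIntegrable (fun _ : ℝ => (1:ℝ)) volume 0 1 := intervalIntegrable_const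
  have h1l : 0 ≤ wB (fun _ => 1) l := by
    have hk := wKer_intervalIntegrable (fun _ => (1:ℝ)) hci
    have h := PWJ.concave_pos_functional (wKer (fun _ => 1)) hk
      (by rw [integral_wKer _ hci, wB_one_one])
      (fun c hc => by
        show 0 ≤ ∫ y in (0:ℝ)..1, wKer (fun _ => 1) y * H75.ramp (1 - c) y
        rw [integral_wKer_mul_ramp _ hci (1 - c)]
        exact wB_one_ramp_nonneg (by linarith [hc.2]) (by linarith [hc.1]))
      l hconc hanti hl0
    rwa [← wB_eq_integral_wKer _ l hli (by simpa using hli)] at h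
  have hrl : ∀ c ∈ Icc (0:ℝ) 1, 0 ≤ wB (H75.ramp (1 - c)) l := by
    intro c hc
    have hri : IntervalIntegrable (H75.ramp (1 - c)) volume 0 1 :=
      (H75.ramp_continuous _).intervalIntegrable 0 1
    have hk := wKer_intervalIntegrable (H75.ramp (1 - c)) hri
    have h := PWJ.concave_pos_functional (wKer (H75.ramp (1 - c))) hk
      (by
        rw [integral_wKer _ hri]
        exact wB_ramp_one_nonneg (by linarith [hc.2]) (by linarith [hc.1]))
      (fun d hd => by
        show 0 ≤ ∫ y in (0:ℝ)..1, wKer (H75.ramp (1 - c)) y * H75.ramp (1 - d) y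
        rw [integral_wKer_mul_ramp _ hri (1 - d)]
        exact wB_ramp_ramp_nonneg (by linarith [hc.2]) (by linarith [hc.1])
          (by linarith [hd.2]) (by linarith [hd.1]))
      l hconc hanti hl0
    rwa [← wB_eq_integral_wKer _ l hli
      (hli.continuousOn_mul (H75.ramp_continuous _).continuousOn)] at h
  have hk := wKer_intervalIntegrable l hli
  have hll : IntervalIntegrable (fun y => l y * l y) volume 0 1 := by
    have hsq : AntitoneOn (fun y => l y * l y) (Icc 0 1) := by
      intro x hx y hy hxy
      have h1 := hanti hx hy hxy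
      exact mul_le_mul h1 h1 (hl0 y hy) (hl0 x hx)
    exact AntitoneOn.intervalIntegrable (by rw [uIcc_of_le zero_le_one]; exact hsq)
  have h := PWJ.concave_pos_functional (wKer l) hk
    (by rw [integral_wKer _ hli, wB_comm]; exact h1l)
    (fun c hc => by
      show 0 ≤ ∫ y in (0:ℝ)..1, wKer l y * H75.ramp (1 - c) y
      rw [integral_wKer_mul_ramp _ hli (1 - c), wB_comm]
      exact hrl c hc)
    l hconc hanti hl0
  rwa [← wB_eq_integral_wKer l l hli hll] at h

end Vale.Agent.Lib.P254.Wedge
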