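import Mathlib
import Vale.Agent.Lib.P254.Wedge.TentMom

/-!
# P254, the wedge class: the polar form on the generators `1 - y`, `y`, `tentG c`
-/

namespace Vale.Agent.Lib.P254.Wedge

theorem wB_e0_e0 : wB (fun y : ℝ => 1 - y) (fun y : ℝ => 1 - y) = 0 := by
  unfold wB
  rw [mom1_e0, mom2_e0, mom3_e0, wS_e0_e0]
  norm_num

theorem wB_e0_e1 : wB (fun y : ℝ => 1 - y) (fun y : ℝ => y) = 0 := by
  unfold wB
  rw [mom1_e0, mom2_e0, mom3_e0, mom1_e1, mom2_e1, mom3_e1, wS_e0_e1]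
  norm_num

theorem wB_e1_e1 : wB (fun y : ℝ => y) (fun y : ℝ => y) = 0 := by
  unfold wB
  rw [mom1_e1, mom2_e1, mom3_e1, wS_e1_e1]
  norm_num

theorem wB_e0_tent {c : ℝ} (hc0 : 0 ≤ c) (hc1 : c ≤ 1) :
    wB (fun y : ℝ => 1 - y) (tentG c) = 1 / 8 * c ^ 3 * (1 - c) ^ 2 := by
  unfold wB
  rw [mom1_e0, mom2_e0, mom3_e0, mom1_tent hc0 hc1, mom2_tent hc0 hc1, mom3_tent hc0 hc1,
    wS_e0_tent hc0 hc1]
  ring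

theorem wB_e1_tent {c : ℝ} (hc0 : 0 ≤ c) (hc1 : c ≤ 1) :
    wB (fun y : ℝ => y) (tentG c) = 1 / 4 * c ^ 3 * (1 - c) ^ 2 := by
  unfold wB
  rw [mom1_e1, mom2_e1, mom3_e1, mom1_tent hc0 hc1, mom2_tent hc0 hc1, mom3_tent hc0 hc1,
    wS_e1_tent hc0 hc1]
  ring

/-- The Bernstein form of the polar form on two tents, `c ≤ d`. -/
theorem wB_tent_tent_eq {c d : ℝ} (hc0 : 0 ≤ c) (hcd : c ≤ d) (hd1 : d ≤ 1) :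
    wB (tentG c) (tentG d)
      = 1 / 8 * c * (d - c) ^ 3 * (1 - d) ^ 4 + 1 / 4 * c * (d - c) ^ 4 * (1 - d) ^ 3
        + 1 / 8 * c * (d - c) ^ 5 * (1 - d) ^ 2 + 3 / 8 * c ^ 2 * (d - c) ^ 2 * (1 - d) ^ 4
        + c ^ 2 * (d - c) ^ 3 * (1 - d) ^ 3 + 5 / 8 * c ^ 2 * (d - c) ^ 4 * (1 - d) ^ 2
        + 1 / 3 * c ^ 3 * (d - c) * (1 - d) ^ 4 + 4 / 3 * c ^ 3 * (d - c) ^ 2 * (1 - d) ^ 3
        + 5 / 4 * c ^ 3 * (d - c) ^ 3 * (1 - d) ^ 2 + 1 / 4 * c ^ 3 * (d - c) ^ 4 * (1 - d)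
        + 1 / 6 * c ^ 4 * (1 - d) ^ 4 + 3 / 4 * c ^ 4 * (d - c) * (1 - d) ^ 3
        + c ^ 4 * (d - c) ^ 2 * (1 - d) ^ 2 + 1 / 2 * c ^ 4 * (d - c) ^ 3 * (1 - d)
        + 1 / 6 * c ^ 5 * (1 - d) ^ 3 + 1 / 4 * c ^ 5 * (d - c) * (1 - d) ^ 2
        + 1 / 4 * c ^ 5 * (d - c) ^ 2 * (1 - d) := by
  have hc1 : c ≤ 1 := le_trans hcd hd1
  have hd0 : 0 ≤ d := le_trans hc0 hcd
  unfold wB
  rw [mom1_tent hc0 hc1, mom2_tent hc0 hc1, mom3_tent hc0 hc1, mom1_tent hd0 hd1,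
    mom2_tent hd0 hd1, mom3_tent hd0 hd1, wS_tent_tent hc0 hcd hd1]
  ring

theorem wB_tent_tent_nonneg {c d : ℝ} (hc0 : 0 ≤ c) (hc1 : c ≤ 1) (hd0 : 0 ≤ d)
    (hd1 : d ≤ 1) : 0 ≤ wB (tentG c) (tentG d) := by
  have key : ∀ {c d : ℝ}, 0 ≤ c → c ≤ d → d ≤ 1 → 0 ≤ wB (tentG c) (tentG d) := by
    intro c d hc0 hcd hd1
    rw [wB_tent_tent_eq hc0 hcd hd1]
    have hu : 0 ≤ d - c := sub_nonneg.mpr hcd
    have hv : 0 ≤ 1 - d := sub_nonneg.mpr hd1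
    positivity
  rcases le_total c d with h | h
  · exact key hc0 h hd1
  · rw [wB_comm]
    exact key hd0 h hc1

end Vale.Agent.Lib.P254.Wedge
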