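import Mathlib
import Vale.Agent.Lib.P254.Wedge.PolarTent
import Vale.Agent.Lib.P254.Wedge.Ker
import Vale.Agent.Lib.P254.Wedge.CritTent

/-!
# P254, the wedge class: the quadratic form is nonnegative on all continuous concave
nonnegative functions
-/

namespace Vale.Agent.Lib.P254.Wedge

open MeasureTheory intervalIntegral Set

/-- One application of the positivity criterion: if the linear functional `g ↦ wB G g` of a
function `G` continuous on `[0,1]` is nonnegative on the three kinds of generators, it is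
nonnegative on every continuous concave nonnegative `l`. -/
theorem qf_step (G : ℝ → ℝ) (hGc : ContinuousOn G (Icc (0:ℝ) 1))
    (h0 : 0 ≤ wB G (fun y : ℝ => 1 - y)) (h1 : 0 ≤ wB G (fun y : ℝ => y))
    (hg : ∀ c ∈ Icc (0:ℝ) 1, 0 ≤ wB G (tentG c))
    (l : ℝ → ℝ) (hcont : ContinuousOn l (Icc (0:ℝ) 1))
    (hconc : ConcaveOn ℝ (Icc (0:ℝ) 1) l) (hl0 : ∀ y ∈ Icc (0:ℝ) 1, 0 ≤ l y) :
    0 ≤ wB G l := by
  have hu : uIcc (0:ℝ) 1 = Icc 0 1 := uIcc_of_le zero_le_one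
  have gi : ∀ g : ℝ → ℝ, ContinuousOn g (Icc (0:ℝ) 1) → IntervalIntegrable g volume 0 1 := by
    intro g hgc
    exact ContinuousOn.intervalIntegrable (by rw [hu]; exact hgc)
  have pi : ∀ g : ℝ → ℝ, ContinuousOn g (Icc (0:ℝ) 1) →
      IntervalIntegrable (fun y => G y * g y) volume 0 1 := by
    intro g hgc
    exact ContinuousOn.intervalIntegrable (by rw [hu]; exact hGc.mul hgc)
  have hk := wKer_intervalIntegrable G (gi G hGc)
  have c0 : ContinuousOn (fun y : ℝ => 1 - y) (Icc (0:ℝ) 1) :=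
    (continuous_const.sub continuous_id).continuousOn
  have c1 : ContinuousOn (fun y : ℝ => y) (Icc (0:ℝ) 1) := continuous_id.continuousOn
  have ct : ∀ c : ℝ, ContinuousOn (tentG c) (Icc (0:ℝ) 1) :=
    fun c => (tentG_continuous c).continuousOn
  have e0 : wB G (fun y : ℝ => 1 - y) = ∫ y in (0:ℝ)..1, wKer G y * (1 - y) :=
    wB_eq_integral_wKer G _ (gi _ c0) (pi _ c0)
  have e1 : wB G (fun y : ℝ => y) = ∫ y in (0:ℝ)..1, wKer G y * y :=
    wB_eq_integral_wKer G _ (gi _ c1) (pi _ c1)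
  have et : ∀ c : ℝ, wB G (tentG c) = ∫ y in (0:ℝ)..1, wKer G y * tentG c y :=
    fun c => wB_eq_integral_wKer G _ (gi _ (ct c)) (pi _ (ct c))
  have el : wB G l = ∫ y in (0:ℝ)..1, wKer G y * l y :=
    wB_eq_integral_wKer G l (gi l hcont) (pi l hcont)
  have h := concave_pos_functional_tent (wKer G) hk (by rw [← e0]; exact h0)
    (by rw [← e1]; exact h1) (fun c hc => by rw [← et c]; exact hg c hc) l hcont hconc hl0
  rw [el]
  exact h

/-- `D(l) ≥ 0` for `l ≥ 0` continuous and concave on `[0,1]`. -/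
theorem wB_self_nonneg_full (l : ℝ → ℝ) (hcont : ContinuousOn l (Icc (0:ℝ) 1))
    (hconc : ConcaveOn ℝ (Icc (0:ℝ) 1) l) (hl0 : ∀ y ∈ Icc (0:ℝ) 1, 0 ≤ l y) :
    0 ≤ wB l l := by
  have c0 : ContinuousOn (fun y : ℝ => 1 - y) (Icc (0:ℝ) 1) :=
    (continuous_const.sub continuous_id).continuousOn
  have c1 : ContinuousOn (fun y : ℝ => y) (Icc (0:ℝ) 1) := continuous_id.continuousOn
  have ct : ∀ c : ℝ, ContinuousOn (tentG c) (Icc (0:ℝ) 1) :=
    fun c => (tentG_continuous c).continuousOn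
  have p8 : ∀ c ∈ Icc (0:ℝ) 1, (0:ℝ) ≤ 1 / 8 * c ^ 3 * (1 - c) ^ 2 := fun c hc =>
    mul_nonneg (mul_nonneg (by norm_num) (pow_nonneg hc.1 3)) (sq_nonneg (1 - c))
  have p4 : ∀ c ∈ Icc (0:ℝ) 1, (0:ℝ) ≤ 1 / 4 * c ^ 3 * (1 - c) ^ 2 := fun c hc =>
    mul_nonneg (mul_nonneg (by norm_num) (pow_nonneg hc.1 3)) (sq_nonneg (1 - c))
  have h0l : 0 ≤ wB (fun y : ℝ => 1 - y) l :=
    qf_step _ c0 (by rw [wB_e0_e0]) (by rw [wB_e0_e1])
      (fun c hc => by rw [wB_e0_tent hc.1 hc.2]; exact p8 c hc) l hcont hconc hl0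
  have h1l : 0 ≤ wB (fun y : ℝ => y) l :=
    qf_step _ c1 (by rw [wB_comm, wB_e0_e1]) (by rw [wB_e1_e1])
      (fun c hc => by rw [wB_e1_tent hc.1 hc.2]; exact p4 c hc) l hcont hconc hl0
  have htl : ∀ c ∈ Icc (0:ℝ) 1, 0 ≤ wB (tentG c) l := fun c hc =>
    qf_step _ (ct c) (by rw [wB_comm, wB_e0_tent hc.1 hc.2]; exact p8 c hc)
      (by rw [wB_comm, wB_e1_tent hc.1 hc.2]; exact p4 c hc)
      (fun d hd => wB_tent_tent_nonneg hc.1 hc.2 hd.1 hd.2) l hcont hconc hl0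
  exact qf_step l hcont (by rw [wB_comm]; exact h0l) (by rw [wB_comm]; exact h1l)
    (fun c hc => by rw [wB_comm]; exact htl c hc) l hcont hconc hl0

end Vale.Agent.Lib.P254.Wedge
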