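import Mathlib
import Vale.Agent.Lib.P254.Wedge.Alg
import Vale.Agent.Lib.P254.Wedge.CS
import Vale.Agent.Lib.P254.Wedge.QuadAnti
import Vale.Agent.Lib.P254.Wedge.MeanAnti
import Vale.Agent.Lib.P254.Wedge.QuadFull
import Vale.Agent.Lib.P254.Wedge.MeanFull

/-!
# P254, the wedge class: the one-dimensional inequality (RAMP)

`80 (∫ y l²)² (∫ y² l)² ((∫ y l)(∫ y³ l) - (∫ y² l)²) ≤ 9 (∫ y l)⁸` for `l ≥ 0` concave on
`[0,1]` (continuous, or antitone).  Equality for `l = 1 - y`.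
-/

namespace Vale.Agent.Lib.P254.Wedge

open MeasureTheory intervalIntegral Set

/-- (RAMP) for concave antitone nonnegative profiles. -/
theorem wedge_core_anti (l : ℝ → ℝ) (hl0 : ∀ y ∈ Icc (0:ℝ) 1, 0 ≤ l y)
    (hanti : AntitoneOn l (Icc 0 1)) (hconc : ConcaveOn ℝ (Icc 0 1) l) :
    80 * (wS l l) ^ 2 * (mom 2 l) ^ 2 * (mom 1 l * mom 3 l - mom 2 l ^ 2)
      ≤ 9 * (mom 1 l) ^ 8 := by
  have hli : IntervalIntegrable l volume 0 1 :=
    AntitoneOn.intervalIntegrable (by rw [uIcc_of_le zero_le_one]; exact hanti)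
  have hD := wB_self_nonneg_anti l hl0 hanti hconc
  rw [wB_self] at hD
  exact wedge_alg (wS l l) (mom 1 l) (mom 2 l) (mom 3 l) (wS_self_nonneg l)
    (mom_lo_anti l hl0 hanti hconc) (mom_hi_anti l hl0 hanti hconc) (mom_cs l hli hl0)
    (by linarith)

/-- (RAMP) for continuous concave nonnegative profiles. -/
theorem wedge_core_full (l : ℝ → ℝ) (hcont : ContinuousOn l (Icc (0:ℝ) 1))
    (hconc : ConcaveOn ℝ (Icc (0:ℝ) 1) l) (hl0 : ∀ y ∈ Icc (0:ℝ) 1, 0 ≤ l y) :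
    80 * (wS l l) ^ 2 * (mom 2 l) ^ 2 * (mom 1 l * mom 3 l - mom 2 l ^ 2)
      ≤ 9 * (mom 1 l) ^ 8 := by
  have hli : IntervalIntegrable l volume 0 1 :=
    ContinuousOn.intervalIntegrable (by rw [uIcc_of_le zero_le_one]; exact hcont)
  have hD := wB_self_nonneg_full l hcont hconc hl0
  rw [wB_self] at hD
  exact wedge_alg (wS l l) (mom 1 l) (mom 2 l) (mom 3 l) (wS_self_nonneg l)
    (mom_lo_full l hcont hconc hl0) (mom_hi_full l hcont hconc hl0) (mom_cs l hli hl0)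
    (by linarith)

end Vale.Agent.Lib.P254.Wedge
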