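import Mathlib
import Vale.Agent.Lib.P254.Wedge.Core
import Vale.Agent.Lib.P254.Ramp.Defs

/-!
# P254, the wedge class: the one-dimensional inequality (RAMP) in the notation of `Ramp/Defs`
-/

namespace Vale.Agent.Lib.P254.Wedge

open MeasureTheory intervalIntegral Set

theorem mA_eq_mom (R : ℝ → ℝ) : Ramp.mA R = mom 1 R := by
  unfold Ramp.mA mom
  congr 1
  funext z
  ring

theorem mM1_eq_mom (R : ℝ → ℝ) : Ramp.mM1 R = mom 2 R := rfl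

theorem mM2_eq_mom (R : ℝ → ℝ) : Ramp.mM2 R = mom 3 R := rfl

theorem mS_eq_wS (R : ℝ → ℝ) : Ramp.mS R = wS R R := by
  unfold Ramp.mS wS
  congr 1
  funext z
  ring

/-- **(RAMP), continuous concave profiles.**  For `R ≥ 0` continuous and concave on `[0,1]`:
`80 (∫ z² R)² (∫ z R²)² ((∫ z R)(∫ z³ R) - (∫ z² R)²) ≤ 9 (∫ z R)⁸`. -/
theorem ramp_ineq_cont (R : ℝ → ℝ) (hcont : ContinuousOn R (Icc (0:ℝ) 1))
    (hc : ConcaveOn ℝ (Icc (0:ℝ) 1) R) (hpos : ∀ z ∈ Icc (0:ℝ) 1, 0 ≤ R z) :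
    80 * (Ramp.mM1 R) ^ 2 * (Ramp.mS R) ^ 2
        * (Ramp.mA R * Ramp.mM2 R - (Ramp.mM1 R) ^ 2) ≤ 9 * (Ramp.mA R) ^ 8 := by
  have h := wedge_core_full R hcont hc hpos
  rw [mA_eq_mom, mM1_eq_mom, mM2_eq_mom, mS_eq_wS]
  calc 80 * mom 2 R ^ 2 * wS R R ^ 2 * (mom 1 R * mom 3 R - mom 2 R ^ 2)
      = 80 * (wS R R) ^ 2 * (mom 2 R) ^ 2 * (mom 1 R * mom 3 R - mom 2 R ^ 2) := by ring
    _ ≤ 9 * (mom 1 R) ^ 8 := h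

/-- **(RAMP), concave antitone profiles.** -/
theorem ramp_ineq_anti (R : ℝ → ℝ) (hpos : ∀ z ∈ Icc (0:ℝ) 1, 0 ≤ R z)
    (hanti : AntitoneOn R (Icc (0:ℝ) 1)) (hc : ConcaveOn ℝ (Icc (0:ℝ) 1) R) :
    80 * (Ramp.mM1 R) ^ 2 * (Ramp.mS R) ^ 2
        * (Ramp.mA R * Ramp.mM2 R - (Ramp.mM1 R) ^ 2) ≤ 9 * (Ramp.mA R) ^ 8 := by
  have h := wedge_core_anti R hpos hanti hc
  rw [mA_eq_mom, mM1_eq_mom, mM2_eq_mom, mS_eq_wS]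
  calc 80 * mom 2 R ^ 2 * wS R R ^ 2 * (mom 1 R * mom 3 R - mom 2 R ^ 2)
      = 80 * (wS R R) ^ 2 * (mom 2 R) ^ 2 * (mom 1 R * mom 3 R - mom 2 R ^ 2) := by ring
    _ ≤ 9 * (mom 1 R) ^ 8 := h

end Vale.Agent.Lib.P254.Wedge
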